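import Vale.Agent.Lib.P195.MinPres

namespace Vale.Agent.Lib.P195

open CategoryTheory Abelian

universe u

section General

variable {𝒜 : Type*} [Category 𝒜] [Abelian 𝒜] [HasExt 𝒜]

/-- Left dimension shift. -/
lemma ext_shift_left {S : ShortComplex 𝒜} (hS : S.ShortExact) [Projective S.X₂] (Y : 𝒜) (n : ℕ)
    (h : Subsingleton (Ext S.X₃ Y (n + 1 + 1))) : Subsingleton (Ext S.X₁ Y (n + 1)) := by
  refine ⟨fun a b => ?_⟩
  have key : ∀ x : Ext S.X₁ Y (n + 1), x = 0 := by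
    intro x
    obtain ⟨x₂, hx₂⟩ := Ext.contravariant_sequence_exact₁ hS Y x (n₁ := n + 1 + 1)
      (by omega) (Subsingleton.elim _ _)
    rw [← hx₂, Ext.eq_zero_of_projective x₂, Ext.comp_zero]
  rw [key a, key b]

/-- Right dimension shift. -/
lemma ext_shift_right {S : ShortComplex 𝒜} (hS : S.ShortExact) (X : 𝒜) (c : ℕ)
    (h₁ : Subsingleton (Ext X S.X₃ c)) (h₂ : Subsingleton (Ext X S.X₂ (c + 1))) :
    Subsingleton (Ext X S.X₁ (c + 1)) := by
  refine ⟨fun a b => ?_⟩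
  have key : ∀ x : Ext X S.X₁ (c + 1), x = 0 := by
    intro x
    obtain ⟨x₃, hx₃⟩ := Ext.covariant_sequence_exact₁ X hS x (Subsingleton.elim _ _) (n₀ := c) rfl
    rw [← hx₃, Subsingleton.elim x₃ 0, Ext.zero_comp]
  rw [key a, key b]

/-- Vanishing of `Ext¹` gives extension of morphisms along the first map. -/
lemma exists_ext_of_subsingleton {S : ShortComplex 𝒜} (hS : S.ShortExact) (Y : 𝒜)
    (h : Subsingleton (Ext S.X₃ Y 1)) (f : S.X₁ ⟶ Y) : ∃ g : S.X₂ ⟶ Y, S.f ≫ g = f := by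
  obtain ⟨x₂, hx₂⟩ := Ext.contravariant_sequence_exact₁ hS Y (Ext.mk₀ f) (n₁ := 1)
    (by omega) (Subsingleton.elim _ _)
  obtain ⟨g, rfl⟩ := (Ext.mk₀_bijective _ _).2 x₂
  refine ⟨g, (Ext.mk₀_bijective _ _).1 ?_⟩
  rw [← Ext.mk₀_comp_mk₀]
  exact hx₂

end General

section Proj

variable {R : Type u} [Ring R]

lemma ext_subsingleton_free (X : ModuleCat.{u} R) (c n : ℕ)
    (h : Subsingleton (Ext X (ModuleCat.of R R) c)) :
    Subsingleton (Ext X (ModuleCat.of R (Fin n → R)) c) := by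
  classical
  refine ⟨fun a b => ?_⟩
  have key : ∀ x : Ext X (ModuleCat.of R (Fin n → R)) c, x = 0 := by
    intro x
    have hid : 𝟙 (ModuleCat.of R (Fin n → R)) = ∑ j : Fin n,
        ModuleCat.ofHom (LinearMap.proj j : (Fin n → R) →ₗ[R] R) ≫
          ModuleCat.ofHom (LinearMap.single R (fun _ => R) j) := by
      ext1
      apply LinearMap.pi_ext'
      intro j
      apply LinearMap.ext_ring
      ext j'
      simp [ModuleCat.hom_sum, Pi.single_apply]
    rw [← Ext.comp_mk₀_id x, hid, Ext.mk₀_sum, Ext.comp_sum]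
    refine Finset.sum_eq_zero fun j _ => ?_
    rw [← Ext.mk₀_comp_mk₀, ← Ext.comp_assoc_of_third_deg_zero,
      Subsingleton.elim (x.comp (Ext.mk₀ _) (add_zero c)) 0, Ext.zero_comp]
  rw [key a, key b]

lemma ext_subsingleton_proj (X Q : ModuleCat.{u} R) [Module.Projective R Q] [Module.Finite R Q]
    (c : ℕ) (h : Subsingleton (Ext X (ModuleCat.of R R) c)) : Subsingleton (Ext X Q c) := by
  obtain ⟨n, q, hq⟩ := Module.Finite.exists_fin' R Q
  obtain ⟨i, hi⟩ := Module.projective_lifting_property q LinearMap.id hq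
  haveI := ext_subsingleton_free X c n h
  refine ⟨fun a b => ?_⟩
  have key : ∀ x : Ext X Q c, x = 0 := by
    intro x
    have hid : 𝟙 Q = (ModuleCat.ofHom i : Q ⟶ ModuleCat.of R (Fin n → R)) ≫
        (ModuleCat.ofHom q : ModuleCat.of R (Fin n → R) ⟶ Q) := by
      ext1
      exact hi.symm
    rw [← Ext.comp_mk₀_id x, hid, ← Ext.mk₀_comp_mk₀, ← Ext.comp_assoc_of_third_deg_zero,
      Subsingleton.elim (x.comp (Ext.mk₀ _) (add_zero c)) 0, Ext.zero_comp]
  rw [key a, key b]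

end Proj

end Vale.Agent.Lib.P195
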