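import Vale.Agent.Lib.P195.EndAlg

namespace Vale.Agent.Lib.P195

open CategoryTheory Abelian

universe u

attribute [local instance] homModule

/-- A family of vectors indexed by a set of natural numbers with a triangular family of functionals
is finite, if the ambient space is finite dimensional. -/
lemma finite_of_tri {W : Type*} [AddCommGroup W] [Module ℚ W] [FiniteDimensional ℚ W] (S : Set ℕ)
    (x : ℕ → W) (l : ℕ → W →ₗ[ℚ] ℚ) (h0 : ∀ a ∈ S, ∀ b ∈ S, b < a → l b (x a) = 0)
    (h1 : ∀ b ∈ S, l b (x b) ≠ 0) : S.Finite := by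
  classical
  have hli : LinearIndependent ℚ (fun b : S => x b) := by
    rw [linearIndependent_iff']
    intro s g hg
    have key : ∀ n : ℕ, ∀ i : S, i.1 = n → i ∈ s → g i = 0 := by
      intro n
      induction n using Nat.strong_induction_on with
      | _ n ih =>
        intro i hin his
        have h2 := congrArg (l i.1) hg
        rw [map_sum, map_zero, Finset.sum_eq_single i] at h2
        · rw [map_smul, smul_eq_mul] at h2
          exact (mul_eq_zero.mp h2).resolve_right (h1 i.1 i.2)
        · intro a has hai
          rw [map_smul, smul_eq_mul]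
          rcases lt_or_gt_of_ne (fun h => hai (Subtype.ext h) : a.1 ≠ i.1) with h | h
          · rw [ih a.1 (by omega) a rfl has, zero_mul]
          · rw [h0 a.1 a.2 i.1 i.2 h, mul_zero]
        · intro h
          exact absurd his h
    exact fun i his => key i.1 i rfl his
  have : Finite S := hli.finite_of_isNoetherian
  exact Set.toFinite S

section Chain

variable {C : Type*} [CommRing C] [IsArtinianRing C] {R : Type u} [Ring R] [Algebra C R]
  [Module.Finite C R]

lemma map_mem_rad {X Y : Type*} [AddCommGroup X] [Module R X] [AddCommGroup Y] [Module R Y]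
    (g : X →ₗ[R] Y) {x : X} (hx : x ∈ Ring.jacobson R • (⊤ : Submodule R X)) :
    g x ∈ Ring.jacobson R • (⊤ : Submodule R Y) := by
  have h2 := Submodule.mem_map_of_mem (f := g) hx
  rw [Submodule.map_smul''] at h2
  exact (smul_mono_right (Ring.jacobson R) (le_top : Submodule.map g ⊤ ≤ ⊤)) h2

variable (C) in
include C in
/-- Infinitely many summands of `add V` with radical maps between them in the forward direction
cannot exist: the chain of trace ideals in `End(V)` stabilizes. -/
theorem exists_eq_rad_of_retracts (N : ℕ → ModuleCat.{u} R) (V : Type u) [AddCommGroup V]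
    [Module R V] [Module.Finite R V] (G : Set ℕ) (hG : G.Infinite)
    (hadd : ∀ b ∈ G, InAdd R V (N b))
    (hrad : ∀ a ∈ G, ∀ b ∈ G, b < a → ∀ (f : N a →ₗ[R] N b) (x : N a),
      f x ∈ Ring.jacobson R • (⊤ : Submodule R (N b))) :
    ∃ a ∈ G, ∀ x : N a, x ∈ Ring.jacobson R • (⊤ : Submodule R (N a)) := by
  classical
  have hfl := isFiniteLength_hom (C := C) (R := R) V V
  rw [isFiniteLength_iff_isNoetherian_isArtinian] at hfl
  have : IsNoetherian C (V →ₗ[R] V) := hfl.1
  let Tr : ℕ → Submodule C (V →ₗ[R] V) := fun b =>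
    Submodule.span C {ψ | ∃ (p : V →ₗ[R] N b) (q : N b →ₗ[R] V), ψ = q.comp p}
  let B : ℕ →o Submodule C (V →ₗ[R] V) :=
    { toFun := fun k => ⨆ b : {b : ℕ // b ∈ G ∧ b < k}, Tr b.1
      monotone' := fun k k' hk => by
        apply iSup_le
        intro b
        exact le_iSup_of_le ⟨b.1, b.2.1, lt_of_lt_of_le b.2.2 hk⟩ le_rfl }
  obtain ⟨K, hK⟩ := monotone_stabilizes_iff_noetherian.mpr (inferInstance : IsNoetherian C _) B
  obtain ⟨a, haG, haK⟩ := hG.exists_gt K
  refine ⟨a, haG, ?_⟩
  -- the trace of `N a` lies in the sum of the earlier traces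
  have hTr : Tr a ≤ B a := by
    have h1 : B K = B a := hK a haK.le
    have h2 : B K = B (a + 1) := hK (a + 1) (by omega)
    rw [← h1, h2]
    exact le_iSup_of_le ⟨a, haG, by omega⟩ le_rfl
  -- the submodule of endomorphisms sandwiching to radical maps
  let Q : Submodule C (V →ₗ[R] V) :=
    { carrier := {ψ | ∀ (p : V →ₗ[R] N a) (q : N a →ₗ[R] V) (x : N a),
        p (ψ (q x)) ∈ Ring.jacobson R • (⊤ : Submodule R (N a))}
      add_mem' := fun {u v} hu hv p q x => by
        have := Submodule.add_mem _ (hu p q x) (hv p q x)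
        simpa using this
      zero_mem' := fun p q x => by simp
      smul_mem' := fun c ψ hψ p q x => by
        change p (algebraMap C R c • ψ (q x)) ∈ _
        rw [map_smul]
        exact Submodule.smul_mem _ _ (hψ p q x) }
  have hBQ : B a ≤ Q := by
    apply iSup_le
    rintro ⟨b, hbG, hba⟩
    apply Submodule.span_le.mpr
    rintro ψ ⟨p', q', rfl⟩ p q x
    exact map_mem_rad (p.comp q') (hrad a haG b hbG hba (p'.comp q) x)
  obtain ⟨m, s, p, hps⟩ := hadd a haG
  intro x
  have hx : ∀ y : N a, ∑ k : Fin m, p (LinearMap.single R (fun _ : Fin m => V) k (s y k)) = y := by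
    intro y
    have h1 : ∑ k : Fin m, LinearMap.single R (fun _ : Fin m => V) k (s y k) = s y := by
      simpa using Finset.univ_sum_single (s y)
    rw [← map_sum, h1]
    exact LinearMap.congr_fun hps y
  rw [← hx x]
  refine Submodule.sum_mem _ fun k _ => ?_
  have hy := hx (LinearMap.single R (fun _ : Fin m => V) k (s x k) |> p)
  rw [← hy]
  refine Submodule.sum_mem _ fun l _ => ?_
  -- `p_k q_k`-type terms: apply the trace inclusion
  have hψ : ((LinearMap.proj l).comp s).comp (p.comp (LinearMap.single R (fun _ : Fin m => V) k)) ∈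
      Q := hBQ (hTr (Submodule.subset_span ⟨p.comp (LinearMap.single R (fun _ : Fin m => V) k),
        (LinearMap.proj l).comp s, rfl⟩))
  exact hψ (p.comp (LinearMap.single R (fun _ : Fin m => V) l))
    ((LinearMap.proj k).comp s) x

end Chain

end Vale.Agent.Lib.P195
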