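import Vale.Agent.Lib.P195.Res

namespace Vale.Agent.Lib.P195

open CategoryTheory Abelian

universe u

/-- The radical `rad(R) X` of a module `X`, as a submodule. -/
abbrev radS (R : Type*) [Ring R] (X : Type*) [AddCommGroup X] [Module R X] : Submodule R X :=
  Ring.jacobson R • (⊤ : Submodule R X)

section Nakayama

variable {R : Type u} [Ring R]

lemma smul_top_ne_top (X : Type*) [AddCommGroup X] [Module R X] [Module.Finite R X]
    [Nontrivial X] : Ring.jacobson R • (⊤ : Submodule R X) ≠ ⊤ :=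
  (Submodule.FG.jacobson_smul_lt (N := (⊤ : Submodule R X)) top_ne_bot Module.Finite.fg_top).ne

lemma subsingleton_of_smul_top_eq_top {X : Type*} [AddCommGroup X] [Module R X] [Module.Finite R X]
    (h : Ring.jacobson R • (⊤ : Submodule R X) = ⊤) : Subsingleton X := by
  by_contra hn
  rw [not_subsingleton_iff_nontrivial] at hn
  exact smul_top_ne_top X h

lemma killed_map_zero {X W : Type*} [AddCommGroup X] [Module R X] [AddCommGroup W] [Module R W]
    (hW : Killed (R := R) W) (g : X →ₗ[R] W) {x : X}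
    (hx : x ∈ Ring.jacobson R • (⊤ : Submodule R X)) : g x = 0 := by
  induction hx using Submodule.smul_induction_on' with
  | smul r hr y _ => rw [map_smul, hW r hr]
  | add a _ b _ ha hb => rw [map_add, ha, hb, add_zero]

lemma exists_factor {P X W : Type*} [AddCommGroup P] [Module R P] [AddCommGroup X] [Module R X]
    [AddCommGroup W] [Module R W] (p : P →ₗ[R] X) (hp : Function.Surjective p) (g : P →ₗ[R] W)
    (h : LinearMap.ker p ≤ LinearMap.ker g) : ∃ u : X →ₗ[R] W, u.comp p = g := by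
  refine ⟨((LinearMap.ker p).liftQ g h).comp (p.quotKerEquivOfSurjective hp).symm.toLinearMap, ?_⟩
  ext x
  have h1 : (p.quotKerEquivOfSurjective hp).symm (p x) = (LinearMap.ker p).mkQ x := by
    rw [LinearEquiv.symm_apply_eq]
    rfl
  simp [h1]

end Nakayama

namespace Res

variable {R : Type u} [Ring R] (r : Res R)

/-- If a syzygy vanishes, the module is projective. -/
lemma proj_of_subsingleton (m : ℕ)
    (hR : ∀ c, 1 ≤ c → c ≤ m + 1 → Subsingleton (Ext (r.N 0) (ModuleCat.of R R) c)) :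
    ∀ b, b ≤ m → Subsingleton (r.N (b + 1)) → Module.Projective R (r.N 0) := by
  have hequiv : ∀ a, Subsingleton (r.N (a + 1)) → Module.Projective R (r.N a) := by
    intro a ha
    haveI := r.proj a
    have hinj : Function.Injective (r.π a) := by
      rw [injective_iff_map_eq_zero]
      intro x hx
      obtain ⟨y, rfl⟩ := (r.exact a x).mp hx
      rw [Subsingleton.elim y 0, map_zero]
    exact Module.Projective.of_equiv (LinearEquiv.ofBijective (r.π a) ⟨hinj, r.surj a⟩)
  intro b
  induction b with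
  | zero =>
    intro _ h
    exact hequiv 0 h
  | succ b ih =>
    intro hb h
    apply ih (by omega)
    haveI hproj := hequiv (b + 1) h
    haveI := r.finN (b + 1)
    have h1 : Subsingleton (Ext (r.N b) (ModuleCat.of R R) 1) :=
      r.ext_left (ModuleCat.of R R) b 0 (hR (b + (0 + 1)) (by omega) (by omega))
    have h2 : Subsingleton (Ext (r.N b) (r.N (b + 1)) 1) :=
      ext_subsingleton_proj (r.N b) (r.N (b + 1)) 1 h1
    obtain ⟨g, hg⟩ := r.exists_ext_of_ext_one h2 LinearMap.id
    apply subsingleton_of_smul_top_eq_top (R := R)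
    refine top_le_iff.mp fun x _ => ?_
    have := map_mem_of_ext (r := r) g x
    rwa [show g (r.i b x) = x from LinearMap.congr_fun hg x] at this

/-- Over an algebra with `rad³ = 0` the radical of a syzygy is killed by the radical. -/
lemma killed_smul (hJ : Ring.jacobson R ^ 3 = ⊥) (k : ℕ) :
    Killed (R := R) (radS R (r.N (k + 1))) := by
  rintro s hs ⟨y, hy⟩
  apply Subtype.ext
  apply r.inj k
  change r.i k (s • y) = r.i k 0
  rw [map_smul, map_zero]
  have h1 : r.i k y ∈ Ring.jacobson R • Ring.jacobson R • (⊤ : Submodule R (r.P k)) := by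
    have h2 := Submodule.mem_map_of_mem (f := r.i k) hy
    rw [Submodule.map_smul''] at h2
    have h5 : Submodule.map (r.i k) (⊤ : Submodule R (r.N (k + 1))) ≤
        Ring.jacobson R • (⊤ : Submodule R (r.P k)) := by
      rw [Submodule.map_top]
      exact r.rad k
    exact (smul_mono_right (Ring.jacobson R) h5) h2
  have h3 := Submodule.smul_mem_smul hs h1
  have h4 : Ring.jacobson R • Ring.jacobson R • Ring.jacobson R • (⊤ : Submodule R (r.P k)) = ⊥ := by
    have h6 : Ring.jacobson R ^ 3 = Ring.jacobson R * Ring.jacobson R * Ring.jacobson R := by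
      rw [show (3 : ℕ) = 2 + 1 from rfl, Submodule.pow_succ, show (2 : ℕ) = 1 + 1 from rfl,
        Submodule.pow_succ, Submodule.pow_one]
    rw [← Submodule.mul_smul, ← Submodule.mul_smul, ← h6, hJ, Submodule.bot_smul]
  rw [h4] at h3
  exact h3

end Res

section Count

variable {C : Type*} [CommRing C] [IsArtinianRing C] {R : Type u} [Ring R] [Algebra C R]
  [Module.Finite C R]

include C in
lemma L_top_eq {P X W : Type*} [AddCommGroup P] [Module R P] [AddCommGroup X] [Module R X]
    [AddCommGroup W] [Module R W] (p : P →ₗ[R] X) (hp : Function.Surjective p)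
    (hker : LinearMap.ker p ≤ Ring.jacobson R • (⊤ : Submodule R P)) (hW : Killed (R := R) W) :
    L C R X W = L C R P W := by
  apply L_pre_eq C p
  constructor
  · intro u v huv
    ext x
    obtain ⟨y, rfl⟩ := hp x
    exact LinearMap.congr_fun huv y
  · intro g
    obtain ⟨u, hu⟩ := exists_factor p hp g
      (fun x hx => killed_map_zero hW g (hker hx))
    exact ⟨u, hu⟩

include C in
lemma L_sub_eq {X N : Type*} [AddCommGroup X] [Module R X] [AddCommGroup N] [Module R N]
    (Y : Submodule R N) (h : ∀ (f : X →ₗ[R] N) (x : X), f x ∈ Y) :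
    L C R X Y = L C R X N := by
  apply L_post_eq C Y.subtype
  constructor
  · intro u v huv
    ext x
    exact LinearMap.congr_fun huv x
  · intro f
    refine ⟨f.codRestrict Y (h f), ?_⟩
    ext x
    rfl

variable (r : Res R)

/-- The basic length equation: `L(P a, N b) = L(N a, N b) + L(N (a+1), N b)` for `b ≤ a`, together
with the decomposition of `L(P a, N b)` along `0 → rad N b → N b → top N b → 0`. -/
lemma count_basic (hJ : Ring.jacobson R ^ 3 = ⊥) (m : ℕ)
    (hM : ∀ c, 1 ≤ c → c ≤ m → Subsingleton (Ext (r.N 0) (r.N 0) c))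
    (hR : ∀ c, 1 ≤ c → c ≤ m + 1 → Subsingleton (Ext (r.N 0) (ModuleCat.of R R) c))
    {a k : ℕ} (hka : k ≤ a) (ham : a + 1 ≤ m) :
    L C R (r.N (a + 1)) (r.N (k + 1)) +
        L C R (r.N (a + 1 + 1)) (radS R (r.N (k + 1))) =
      L C R (r.N (a + 1)) (radS R (r.N (k + 1))) +
        L C R (r.N (a + 1)) (r.N (k + 1) ⧸ (radS R (r.N (k + 1)))) := by
  haveI hN : IsNoetherianRing R := isNoetherianRing_of_finite C R
  haveI := r.finN (k + 1)
  haveI := r.finN (a + 1)
  haveI := r.finN (a + 1 + 1)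
  haveI := r.proj (a + 1)
  haveI := r.finP (a + 1)
  set Y := radS R (r.N (k + 1)) with hY
  have hext := r.ext_one m hM hR (a := a + 1) (b := k + 1) (by omega) (by omega) ham
  have hkillY : Killed (R := R) Y := Res.killed_smul r hJ k
  have hkillZ : Killed (R := R) (r.N (k + 1) ⧸ Y) := killed_quot
  have hker : LinearMap.ker (r.π (a + 1)) ≤
      Ring.jacobson R • (⊤ : Submodule R (r.P (a + 1))) := by
    intro x hx
    obtain ⟨y, rfl⟩ := (r.exact (a + 1) x).mp hx
    exact r.rad (a + 1) ⟨y, rfl⟩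
  have e1 : L C R (r.P (a + 1)) (r.N (k + 1)) =
      L C R (r.N (a + 1)) (r.N (k + 1)) + L C R (r.N (a + 1 + 1)) (r.N (k + 1)) :=
    L_pre_add C (r.i (a + 1)) (r.π (a + 1)) (r.surj _) (r.exact _)
      (fun f => r.exists_ext_of_ext_one hext f)
  have e2 : L C R (r.P (a + 1)) (r.N (k + 1)) =
      L C R (r.P (a + 1)) Y + L C R (r.P (a + 1)) (r.N (k + 1) ⧸ Y) :=
    L_post_add C Y.subtype Y.mkQ Y.injective_subtype (LinearMap.exact_subtype_mkQ Y)
      (fun h => Module.projective_lifting_property Y.mkQ h Y.mkQ_surjective)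
  have e3 : L C R (r.N (a + 1)) Y = L C R (r.P (a + 1)) Y :=
    L_top_eq (C := C) (r.π (a + 1)) (r.surj _) hker hkillY
  have e4 : L C R (r.N (a + 1)) (r.N (k + 1) ⧸ Y) = L C R (r.P (a + 1)) (r.N (k + 1) ⧸ Y) :=
    L_top_eq (C := C) (r.π (a + 1)) (r.surj _) hker hkillZ
  have e5 : L C R (r.N (a + 1 + 1)) Y = L C R (r.N (a + 1 + 1)) (r.N (k + 1)) := by
    apply L_sub_eq (C := C) Y
    intro f x
    obtain ⟨g, hg⟩ := r.exists_ext_of_ext_one hext f
    rw [← hg]
    exact Res.map_mem_of_ext (r := r) g x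
  omega

/-- For `a > k`: `L(N (a+2), rad N (k+1)) = L(N (a+1), top N (k+1))`. -/
lemma count_gt (hJ : Ring.jacobson R ^ 3 = ⊥) (m : ℕ)
    (hM : ∀ c, 1 ≤ c → c ≤ m → Subsingleton (Ext (r.N 0) (r.N 0) c))
    (hR : ∀ c, 1 ≤ c → c ≤ m + 1 → Subsingleton (Ext (r.N 0) (ModuleCat.of R R) c))
    {a k : ℕ} (hka : k < a) (ham : a + 1 ≤ m) :
    L C R (r.N (a + 1 + 1)) (radS R (r.N (k + 1))) =
      L C R (r.N (a + 1)) (r.N (k + 1) ⧸ (radS R (r.N (k + 1)))) := by
  have h := count_basic (C := C) r hJ m hM hR hka.le ham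
  obtain ⟨a', rfl⟩ : ∃ a', a = a' + 1 := ⟨a - 1, by omega⟩
  have hext := r.ext_one m hM hR (a := a' + 1) (b := k + 1) (by omega) (by omega) (by omega)
  have e : L C R (r.N (a' + 1 + 1)) (radS R (r.N (k + 1))) =
      L C R (r.N (a' + 1 + 1)) (r.N (k + 1)) := by
    apply L_sub_eq (C := C)
    intro f x
    obtain ⟨g, hg⟩ := r.exists_ext_of_ext_one hext f
    rw [← hg]
    exact Res.map_mem_of_ext (r := r) g x
  omega

/-- At `a = k`: `L(N (k+2), rad N (k+1)) + 1 ≤ L(N (k+1), top N (k+1))`, because of the identity. -/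
lemma count_eq (hJ : Ring.jacobson R ^ 3 = ⊥) (m : ℕ)
    (hM : ∀ c, 1 ≤ c → c ≤ m → Subsingleton (Ext (r.N 0) (r.N 0) c))
    (hR : ∀ c, 1 ≤ c → c ≤ m + 1 → Subsingleton (Ext (r.N 0) (ModuleCat.of R R) c))
    {k : ℕ} (hk : k + 1 ≤ m) (hnt : Nontrivial (r.N (k + 1))) :
    L C R (r.N (k + 1 + 1)) (radS R (r.N (k + 1))) + 1 ≤
      L C R (r.N (k + 1)) (r.N (k + 1) ⧸ (radS R (r.N (k + 1)))) := by
  haveI hN : IsNoetherianRing R := isNoetherianRing_of_finite C R
  haveI := r.finN (k + 1)
  have h := count_basic (C := C) r hJ m hM hR le_rfl hk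
  have hlt : L C R (r.N (k + 1)) (radS R (r.N (k + 1))) + 1 ≤
      L C R (r.N (k + 1)) (r.N (k + 1)) := by
    apply L_post_lt C (radS R (r.N (k + 1))).subtype
      (Submodule.injective_subtype _) LinearMap.id
    rintro ⟨u, hu⟩
    apply smul_top_ne_top (R := R) (r.N (k + 1))
    refine top_le_iff.mp fun x _ => ?_
    have := (u x).2
    rwa [show ((u x : r.N (k + 1))) = x from LinearMap.congr_fun hu x] at this
  omega

end Count

end Vale.Agent.Lib.P195
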