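import Mathlib

namespace Vale.Agent.Lib.P195

universe u

/-- `W` is a direct summand of a finite direct sum of copies of `V`, that is, `W ∈ add V`:
there are `s : W → V^m` and `p : V^m → W` with `p ∘ s = id`. -/
def InAdd (R : Type*) [Ring R] (V W : Type*) [AddCommGroup V] [Module R V] [AddCommGroup W]
    [Module R W] : Prop :=
  ∃ (m : ℕ) (s : W →ₗ[R] (Fin m → V)) (p : (Fin m → V) →ₗ[R] W), p.comp s = LinearMap.id

/-- `X` has a resolution `0 → V₁ → V₀ → X → 0` (exact) with `V₀, V₁ ∈ add V`. -/
def HasTwoTerm (R : Type u) [Ring R] (V X : Type u) [AddCommGroup V] [Module R V] [AddCommGroup X]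
    [Module R X] : Prop :=
  ∃ (V₀ V₁ : ModuleCat.{u} R) (f : V₁ →ₗ[R] V₀) (g : V₀ →ₗ[R] X), InAdd R V V₀ ∧ InAdd R V V₁ ∧
    Function.Injective f ∧ Function.Surjective g ∧ Function.Exact f g

/-- `IsMinSyz R k N`: the module `N` is the `k`-th syzygy `Ω^k X` of a finitely generated module
`X`, syzygies being taken in minimal projective resolutions: `IsMinSyz R 0 N` says `N` is finitely
generated, and `IsMinSyz R (k + 1) N` says there is a short exact sequence `0 → N → P → X → 0` with
`P` finitely generated projective, `N ⊆ rad(R) P` (so `P → X` is a projective cover), and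
`IsMinSyz R k X`. -/
def IsMinSyz (R : Type u) [Ring R] : ℕ → ModuleCat.{u} R → Prop
  | 0, N => Module.Finite R N
  | k + 1, N => ∃ (X P : ModuleCat.{u} R) (i : N →ₗ[R] P) (π : P →ₗ[R] X), IsMinSyz R k X ∧
      Module.Projective R P ∧ Module.Finite R P ∧ Function.Injective i ∧
      Function.Surjective π ∧ Function.Exact i π ∧
      LinearMap.range i ≤ Ring.jacobson R • (⊤ : Submodule R P)

/-- `V` is an `n`-Igusa-Todorov module for `R` in the sense of Wei: for every finitely generated
module `X`, the syzygy `Ω^n X` has an exact sequence `0 → V₁ → V₀ → Ω^n X → 0` with `V₀, V₁ ∈ add V`.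
The algebra `R` is `n`-Igusa-Todorov when such a finitely generated `V` exists. -/
def IsIgusaTodorov (R : Type u) [Ring R] (n : ℕ) (V : Type u) [AddCommGroup V] [Module R V] : Prop :=
  ∀ N : ModuleCat.{u} R, IsMinSyz R n N → HasTwoTerm R V N

end Vale.Agent.Lib.P195
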