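import Vale.Agent.Lib.P195.Main
import Vale.Agent.Lib.P195.ITDefs

namespace Vale.Agent.Lib.P195

open CategoryTheory Abelian

universe u v

attribute [local instance] homModule

section CompVec

variable {C : Type*} [CommRing C] [IsArtinianRing C] {R : Type u} [Ring R] [Algebra C R]
  [Module.Finite C R]

/-- Composition factor vectors: `L C R X Y` for projective `X` only depends on the composition
factors of `Y`. -/
theorem exists_comp_vec {ι : Type*} [Fintype ι] (I : ι → Type u) [∀ i, AddCommGroup (I i)]
    [∀ i, Module R (I i)]
    (hrep : ∀ (S : Type u) [AddCommGroup S] [Module R S] [IsSimpleModule R S],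
      ∃ i, Nonempty (I i ≃ₗ[R] S)) :
    ∀ (n : ℕ) (Y : Type u) [AddCommGroup Y] [Module R Y] [Module.Finite R Y],
      (Module.length R Y).toNat = n →
      ∃ y : ι → ℕ, ∀ (X : Type v) [AddCommGroup X] [Module R X] [Module.Finite R X]
        [Module.Projective R X], L C R X Y = ∑ i, y i * L C R X (I i) := by
  classical
  have hA : IsArtinianRing R := isArtinianRing_of_finite C R
  have hN : IsNoetherianRing R := isNoetherianRing_of_finite C R
  intro n
  induction n using Nat.strong_induction_on with
  | _ n ih =>
    intro Y _ _ _ hn
    by_cases hsub : Subsingleton Y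
    · refine ⟨0, fun X _ _ _ _ => ?_⟩
      rw [L_eq_zero_of_subsingleton]
      simp
    · rw [not_subsingleton_iff_nontrivial] at hsub
      obtain ⟨m, hm⟩ : ∃ m : Submodule R Y, IsSimpleModule R m := by
        obtain h | ⟨m, hm, -⟩ := eq_bot_or_exists_atom_le (⊤ : Submodule R Y)
        · exact absurd h top_ne_bot
        · exact ⟨m, isSimpleModule_iff_isAtom.mpr hm⟩
      obtain ⟨i, ⟨e⟩⟩ := hrep m
      have hlen : Module.length R Y = 1 + Module.length R (Y ⧸ m) :=
        Module.length_eq_add_of_exact m.subtype m.mkQ m.injective_subtype m.mkQ_surjective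
          (LinearMap.exact_subtype_mkQ m) |>.trans (by rw [Module.length_eq_one_iff.mpr hm])
      have hfin : Module.length R (Y ⧸ m) ≠ ⊤ := Module.length_ne_top
      have hlt : (Module.length R (Y ⧸ m)).toNat < n := by
        rw [← hn, hlen, ENat.toNat_add (by simp) hfin]
        simp
      obtain ⟨y, hy⟩ := ih _ hlt (Y ⧸ m) rfl
      refine ⟨y + Pi.single i 1, fun X _ _ _ _ => ?_⟩
      have h1 : L C R X Y = L C R X m + L C R X (Y ⧸ m) :=
        L_post_add C m.subtype m.mkQ m.injective_subtype (LinearMap.exact_subtype_mkQ m)
          (fun h => Module.projective_lifting_property m.mkQ h m.mkQ_surjective)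
      have h2 : L C R X (I i) = L C R X m := by
        apply L_post_eq C e.toLinearMap
        constructor
        · intro u v huv
          ext x
          exact e.injective (LinearMap.congr_fun huv x)
        · intro u
          refine ⟨e.symm.toLinearMap.comp u, ?_⟩
          ext x
          simp
      rw [h1, hy X, ← h2]
      simp only [Pi.add_apply, add_mul, Finset.sum_add_distrib, Pi.single_apply, ite_mul, one_mul,
        zero_mul, Finset.sum_ite_eq', Finset.mem_univ, if_true]
      ring

end CompVec

section EndAlg

variable (C : Type*) [CommRing C] {R : Type u} [Ring R] [Algebra C R]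

/-- The `C`-algebra structure on `End_R(V)`. -/
@[reducible] noncomputable def endAlgebra (V : Type*) [AddCommGroup V] [Module R V] :
    Algebra C (Module.End R V) where
  toSMul := (homModule C V V).toSMul
  algebraMap :=
    { toFun := centralEnd C V
      map_one' := by
        ext x
        simp [centralEnd]
      map_mul' := fun a b => by
        ext x
        change algebraMap C R (a * b) • x = algebraMap C R a • algebraMap C R b • x
        rw [map_mul, mul_smul]
      map_zero' := by
        ext x
        simp [centralEnd]
      map_add' := fun a b => by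
        ext x
        simp [centralEnd, add_smul] }
  commutes' := fun c a => by
    ext x
    simp [centralEnd]
  smul_def' := fun c a => rfl

attribute [local instance] endAlgebra

variable {C}

lemma end_smul_apply {V X : Type*} [AddCommGroup V] [Module R V] [AddCommGroup X] [Module R X]
    (a : Module.End R V) (g : X →ₗ[R] V) (x : X) : (a • g) x = a (g x) := rfl

lemma instTower (V X : Type*) [AddCommGroup V] [Module R V] [AddCommGroup X] [Module R X] :
    IsScalarTower C (Module.End R V) (X →ₗ[R] V) where
  smul_assoc _ _ _ := rfl

attribute [local instance] instTower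

variable [IsArtinianRing C] [Module.Finite C R]

lemma finite_end (V : Type*) [AddCommGroup V] [Module R V] [Module.Finite R V] :
    Module.Finite C (Module.End R V) := by
  have h := isFiniteLength_hom (C := C) (R := R) V V
  rw [isFiniteLength_iff_isNoetherian_isArtinian] at h
  have : IsNoetherian C (V →ₗ[R] V) := h.1
  exact inferInstanceAs (Module.Finite C (V →ₗ[R] V))

variable (C) in
include C in
lemma finite_F (V X : Type*) [AddCommGroup V] [Module R V] [AddCommGroup X] [Module R X]
    [Module.Finite R V] [Module.Finite R X] : Module.Finite (Module.End R V) (X →ₗ[R] V) := by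
  have h := isFiniteLength_hom (C := C) (R := R) X V
  rw [isFiniteLength_iff_isNoetherian_isArtinian] at h
  have : IsNoetherian C (X →ₗ[R] V) := h.1
  have : IsNoetherian (Module.End R V) (X →ₗ[R] V) := isNoetherian_of_tower C h.1
  infer_instance

end EndAlg

section Yoneda

variable {C : Type*} [CommRing C] {R : Type u} [Ring R] [Algebra C R]

attribute [local instance] endAlgebra

lemma finite_of_inAdd {V W : Type*} [AddCommGroup V] [Module R V] [AddCommGroup W] [Module R W]
    [Module.Finite R V] (h : InAdd R V W) : Module.Finite R W := by
  obtain ⟨m, s, p, hps⟩ := h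
  refine Module.Finite.of_surjective p fun w => ⟨s w, ?_⟩
  exact LinearMap.congr_fun hps w

variable (C) in
/-- The Yoneda map. -/
def yon (X W V : Type*) [AddCommGroup V] [Module R V] [AddCommGroup W] [Module R W]
    [AddCommGroup X] [Module R X] :
    (X →ₗ[R] W) →ₗ[C] ((W →ₗ[R] V) →ₗ[Module.End R V] (X →ₗ[R] V)) where
  toFun g :=
    { toFun := fun h => h.comp g
      map_add' := fun a b => LinearMap.add_comp g b a
      map_smul' := fun _ _ => rfl }
  map_add' a b := by
    ext h x
    simp
  map_smul' c g := by
    ext h x
    change h (algebraMap C R c • g x) = algebraMap C R c • h (g x)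
    rw [map_smul]

variable {V W X : Type*} [AddCommGroup V] [Module R V] [AddCommGroup W] [Module R W]
    [AddCommGroup X] [Module R X]

lemma sum_single_comp {m : ℕ} (s : W →ₗ[R] (Fin m → V)) (p : (Fin m → V) →ₗ[R] W)
    (hps : p.comp s = LinearMap.id) (h : W →ₗ[R] V) :
    ∑ k : Fin m, (((h.comp p).comp (LinearMap.single R (fun _ : Fin m => V) k) : Module.End R V) •
      ((LinearMap.proj k).comp s : W →ₗ[R] V)) = h := by
  ext w
  have h1 : ∑ k : Fin m, LinearMap.single R (fun _ : Fin m => V) k (s w k) = s w := by
    simpa using Finset.univ_sum_single (s w)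
  have h2 : p (s w) = w := LinearMap.congr_fun hps w
  calc _ = ∑ k : Fin m, h (p (LinearMap.single R (fun _ : Fin m => V) k (s w k))) := by
        simp [LinearMap.sum_apply]
    _ = h (p (∑ k : Fin m, LinearMap.single R (fun _ : Fin m => V) k (s w k))) := by
        simp [map_sum]
    _ = h w := by rw [h1, h2]

variable (C) (X) in
lemma yon_bijective (hW : InAdd R V W) : Function.Bijective (yon (R := R) C X W V) := by
  obtain ⟨m, s, p, hps⟩ := hW
  constructor
  · intro g g' hgg
    ext x
    have hs : ∀ w w' : W, s w = s w' → w = w' := fun w w' hw => by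
      have h1 := LinearMap.congr_arg (f := p) hw
      simpa [show p (s w) = w from LinearMap.congr_fun hps w,
        show p (s w') = w' from LinearMap.congr_fun hps w'] using h1
    apply hs
    funext k
    have := LinearMap.congr_fun (LinearMap.congr_fun hgg ((LinearMap.proj k).comp s)) x
    exact this
  · intro ψ
    let t : X →ₗ[R] (Fin m → V) := LinearMap.pi fun k => ψ ((LinearMap.proj k).comp s)
    refine ⟨p.comp t, ?_⟩
    ext h x
    have hk := sum_single_comp s p hps h
    have e1 : (yon (R := R) C X W V (p.comp t)) h x = h (p (t x)) := rfl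
    rw [e1]
    conv_rhs => rw [← hk]
    rw [map_sum, LinearMap.sum_apply]
    have h1 : ∑ k : Fin m, LinearMap.single R (fun _ : Fin m => V) k (t x k) = t x := by
      simpa using Finset.univ_sum_single (t x)
    conv_lhs => rw [← h1, map_sum, map_sum]
    refine Finset.sum_congr rfl fun k _ => ?_
    rw [map_smul]
    rfl

variable (C) in
/-- Yoneda: `Hom_R(X, W)` is `Hom` over `End V` between `Hom_R(W, V)` and `Hom_R(X, V)`. -/
lemma L_yoneda (hW : InAdd R V W) :
    L C R X W = L C (Module.End R V) (W →ₗ[R] V) (X →ₗ[R] V) := by
  unfold L
  rw [(LinearEquiv.ofBijective (yon (R := R) C X W V) (yon_bijective C X hW)).length_eq]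

lemma projective_hom (hW : InAdd R V W) : Module.Projective (Module.End R V) (W →ₗ[R] V) := by
  obtain ⟨m, s, p, hps⟩ := hW
  let i : (W →ₗ[R] V) →ₗ[Module.End R V] (Fin m → Module.End R V) :=
    { toFun := fun h k => (h.comp p).comp (LinearMap.single R (fun _ : Fin m => V) k)
      map_add' := fun a b => by
        funext k
        ext x
        simp
      map_smul' := fun a h => by
        funext k
        rfl }
  let r : (Fin m → Module.End R V) →ₗ[Module.End R V] (W →ₗ[R] V) :=
    { toFun := fun a => ∑ k, a k • ((LinearMap.proj k).comp s : W →ₗ[R] V)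
      map_add' := fun a b => by
        simp [add_smul, Finset.sum_add_distrib]
      map_smul' := fun c a => by
        simp [mul_smul, Finset.smul_sum] }
  refine Module.Projective.of_split i r ?_
  ext h w
  exact LinearMap.congr_fun (sum_single_comp s p hps h) w

lemma finite_hom (hW : InAdd R V W) : Module.Finite (Module.End R V) (W →ₗ[R] V) := by
  obtain ⟨m, s, p, hps⟩ := hW
  let r : (Fin m → Module.End R V) →ₗ[Module.End R V] (W →ₗ[R] V) :=
    { toFun := fun a => ∑ k, a k • ((LinearMap.proj k).comp s : W →ₗ[R] V)
      map_add' := fun a b => by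
        simp [add_smul, Finset.sum_add_distrib]
      map_smul' := fun c a => by
        simp [mul_smul, Finset.smul_sum] }
  refine Module.Finite.of_surjective r fun h => ⟨fun k => (h.comp p).comp
    (LinearMap.single R (fun _ : Fin m => V) k), ?_⟩
  exact sum_single_comp s p hps h

end Yoneda

end Vale.Agent.Lib.P195
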