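import Mathlib

namespace Vale.Agent.Lib.P195

universe u v w

section HomModule

variable (C : Type*) [CommRing C] {R : Type*} [Ring R] [Algebra C R]

/-- Multiplication by a central scalar, as an `R`-linear endomorphism. -/
def centralEnd (Y : Type*) [AddCommGroup Y] [Module R Y] (c : C) : Y →ₗ[R] Y where
  toFun y := algebraMap C R c • y
  map_add' := smul_add _
  map_smul' r y := by
    simp only [RingHom.id_apply, smul_smul, Algebra.commutes]

/-- The central scalars act on `Hom_R(X, Y)`. -/
@[reducible] def homModule (X Y : Type*) [AddCommGroup X] [Module R X] [AddCommGroup Y] [Module R Y] :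
    Module C (X →ₗ[R] Y) where
  smul c f := (centralEnd C Y c).comp f
  one_smul f := by
    ext x
    change algebraMap C R 1 • f x = f x
    simp
  mul_smul a b f := by
    ext x
    change algebraMap C R (a * b) • f x = algebraMap C R a • algebraMap C R b • f x
    simp [mul_smul]
  smul_zero a := by
    ext x
    change algebraMap C R a • (0 : Y) = 0
    simp
  smul_add a f g := by
    ext x
    change algebraMap C R a • (f x + g x) = algebraMap C R a • f x + algebraMap C R a • g x
    simp
  add_smul a b f := by
    ext x
    change algebraMap C R (a + b) • f x = algebraMap C R a • f x + algebraMap C R b • f x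
    simp [add_smul]
  zero_smul f := by
    ext x
    change algebraMap C R 0 • f x = 0
    simp

attribute [local instance] homModule

lemma homModule_smul_apply {X Y : Type*} [AddCommGroup X] [Module R X] [AddCommGroup Y]
    [Module R Y] (c : C) (f : X →ₗ[R] Y) (x : X) : (c • f) x = algebraMap C R c • f x := rfl

variable {X X' Y Y' : Type*} [AddCommGroup X] [Module R X] [AddCommGroup X'] [Module R X']
  [AddCommGroup Y] [Module R Y] [AddCommGroup Y'] [Module R Y']

/-- Postcomposition, as a `C`-linear map. -/
def postC (g : Y →ₗ[R] Y') : (X →ₗ[R] Y) →ₗ[C] (X →ₗ[R] Y') where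
  toFun f := g.comp f
  map_add' a b := LinearMap.comp_add a b g
  map_smul' c f := by
    ext x
    simp [homModule_smul_apply]

/-- Precomposition, as a `C`-linear map. -/
def preC (h : X' →ₗ[R] X) : (X →ₗ[R] Y) →ₗ[C] (X' →ₗ[R] Y) where
  toFun f := f.comp h
  map_add' a b := LinearMap.add_comp h b a
  map_smul' c f := by
    ext x
    simp [homModule_smul_apply]

@[simp] lemma postC_apply (g : Y →ₗ[R] Y') (f : X →ₗ[R] Y) : postC C g f = g.comp f := rfl
@[simp] lemma preC_apply (h : X' →ₗ[R] X) (f : X →ₗ[R] Y) : preC C h f = f.comp h := rfl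

/-- The length over `C` of `Hom_R(X, Y)`, as a natural number. -/
noncomputable def L (R : Type*) [Ring R] [Algebra C R] (X Y : Type*) [AddCommGroup X] [Module R X]
    [AddCommGroup Y] [Module R Y] : ℕ :=
  (Module.length C (X →ₗ[R] Y)).toNat

end HomModule

section FiniteLength

attribute [local instance] homModule

variable {C : Type*} [CommRing C] {R : Type*} [Ring R] [Algebra C R]

/-- `Hom_R(X, Y)` has finite length over the base ring `C`. -/
lemma isFiniteLength_hom [IsArtinianRing C] [Module.Finite C R] (X Y : Type*) [AddCommGroup X] [Module R X] [AddCommGroup Y] [Module R Y]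
    [Module.Finite R X] [Module.Finite R Y] : IsFiniteLength C (X →ₗ[R] Y) := by
  obtain ⟨n, q, hq⟩ := Module.Finite.exists_fin' R X
  letI : Module C Y := Module.compHom Y (algebraMap C R)
  haveI : IsScalarTower C R Y := IsScalarTower.of_compHom C R Y
  haveI : Module.Finite C Y := Module.Finite.trans R Y
  let Φ : (X →ₗ[R] Y) →ₗ[C] (Fin n → Y) :=
    { toFun := fun f j => f (q (Pi.single j 1))
      map_add' := fun f g => by ext j; simp
      map_smul' := fun c f => by
        ext j
        rfl }
  have hΦ : Function.Injective Φ := by
    intro f g hfg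
    have h1 : f.comp q = g.comp q := by
      apply LinearMap.pi_ext'
      intro j
      apply LinearMap.ext_ring
      have := congrFun hfg j
      simpa [Φ] using this
    ext x
    obtain ⟨y, rfl⟩ := hq x
    exact LinearMap.congr_fun h1 y
  rw [isFiniteLength_iff_isNoetherian_isArtinian]
  exact ⟨isNoetherian_of_injective Φ hΦ, isArtinian_of_injective Φ hΦ⟩

lemma toNat_length_add {A B D : Type*} [AddCommGroup A] [Module C A] [AddCommGroup B] [Module C B]
    [AddCommGroup D] [Module C D] (f : A →ₗ[C] B) (g : B →ₗ[C] D) (hf : Function.Injective f)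
    (hg : Function.Surjective g) (hfg : Function.Exact f g) (hA : IsFiniteLength C A)
    (hD : IsFiniteLength C D) :
    (Module.length C B).toNat = (Module.length C A).toNat + (Module.length C D).toNat := by
  rw [Module.length_eq_add_of_exact f g hf hg hfg]
  exact ENat.toNat_add (Module.length_ne_top_iff.mpr hA) (Module.length_ne_top_iff.mpr hD)

variable [IsArtinianRing C] [Module.Finite C R]
variable {X N P Y A B D : Type*} [AddCommGroup X] [Module R X] [AddCommGroup N] [Module R N]
  [AddCommGroup P] [Module R P] [AddCommGroup Y] [Module R Y] [AddCommGroup A] [Module R A]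
  [AddCommGroup B] [Module R B] [AddCommGroup D] [Module R D]

variable (C) in
/-- `Hom(X, -)` is additive on a short exact sequence along which all maps from `X` lift. -/
lemma L_post_add [Module.Finite R X] [Module.Finite R A] [Module.Finite R D]
    (f : A →ₗ[R] B) (g : B →ₗ[R] D) (hf : Function.Injective f) (hfg : Function.Exact f g)
    (hlift : ∀ h : X →ₗ[R] D, ∃ h' : X →ₗ[R] B, g.comp h' = h) :
    L C R X B = L C R X A + L C R X D := by
  refine toNat_length_add (postC C f) (postC C g) ?_ ?_ ?_
    (isFiniteLength_hom X A) (isFiniteLength_hom X D)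
  · intro u v huv
    ext x
    exact hf (LinearMap.congr_fun huv x)
  · intro h
    obtain ⟨h', hh'⟩ := hlift h
    exact ⟨h', hh'⟩
  · intro h
    constructor
    · intro hh
      have hmem : ∀ x, h x ∈ LinearMap.range f := fun x => by
        have : g (h x) = 0 := LinearMap.congr_fun hh x
        exact (hfg (h x)).mp this
      refine ⟨(LinearEquiv.ofInjective f hf).symm.toLinearMap.comp (h.codRestrict _ hmem), ?_⟩
      ext x
      have := (LinearEquiv.ofInjective f hf).apply_symm_apply (h.codRestrict _ hmem x)
      simpa using congrArg Subtype.val this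
    · rintro ⟨u, rfl⟩
      ext x
      exact (hfg (f (u x))).mpr ⟨u x, rfl⟩

variable (C) in
/-- `Hom(-, Y)` is additive on a short exact sequence along which all maps to `Y` extend. -/
lemma L_pre_add [Module.Finite R X] [Module.Finite R N] [Module.Finite R Y]
    (i : N →ₗ[R] P) (p : P →ₗ[R] X) (hp : Function.Surjective p) (hip : Function.Exact i p)
    (hext : ∀ h : N →ₗ[R] Y, ∃ g : P →ₗ[R] Y, g.comp i = h) :
    L C R P Y = L C R X Y + L C R N Y := by
  refine toNat_length_add (preC C p) (preC C i) ?_ ?_ ?_
    (isFiniteLength_hom X Y) (isFiniteLength_hom N Y)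
  · intro u v huv
    ext x
    obtain ⟨y, rfl⟩ := hp x
    exact LinearMap.congr_fun huv y
  · intro h
    obtain ⟨g, hg⟩ := hext h
    exact ⟨g, hg⟩
  · intro g
    constructor
    · intro hg
      have hker : LinearMap.ker p ≤ LinearMap.ker g := by
        intro x hx
        obtain ⟨y, rfl⟩ := (hip x).mp hx
        exact LinearMap.congr_fun hg y
      refine ⟨((LinearMap.ker p).liftQ g hker).comp
        (p.quotKerEquivOfSurjective hp).symm.toLinearMap, ?_⟩
      ext x
      have h1 : (p.quotKerEquivOfSurjective hp).symm (p x) = (LinearMap.ker p).mkQ x := by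
        rw [LinearEquiv.symm_apply_eq]
        rfl
      simp [h1]
    · rintro ⟨u, rfl⟩
      ext x
      simp only [preC_apply, LinearMap.comp_apply, LinearMap.zero_apply]
      have : p (i x) = 0 := (hip (i x)).mpr ⟨x, rfl⟩
      rw [this, map_zero]

variable (C) in
/-- Bijective postcomposition preserves `L`. -/
lemma L_post_eq (g : A →ₗ[R] B) (hg : Function.Bijective (postC (X := X) C g)) :
    L C R X A = L C R X B := by
  unfold L
  rw [(LinearEquiv.ofBijective (postC (X := X) C g) hg).length_eq]

variable (C) in
/-- Bijective precomposition preserves `L`. -/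
lemma L_pre_eq (h : P →ₗ[R] X) (hh : Function.Bijective (preC (Y := Y) C h)) :
    L C R X Y = L C R P Y := by
  unfold L
  rw [(LinearEquiv.ofBijective (preC (Y := Y) C h) hh).length_eq]

variable (C) in
/-- A non-surjective injective postcomposition strictly increases `L`. -/
lemma L_post_lt [Module.Finite R X] [Module.Finite R A] [Module.Finite R B]
    (g : A →ₗ[R] B) (hg : Function.Injective g) (f : X →ₗ[R] B)
    (hf : ¬ ∃ u : X →ₗ[R] A, g.comp u = f) :
    L C R X A + 1 ≤ L C R X B := by
  have hinj : Function.Injective (postC (X := X) C g) := by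
    intro u v huv
    ext x
    exact hg (LinearMap.congr_fun huv x)
  have hA := isFiniteLength_hom (C := C) (R := R) X A
  have hB := isFiniteLength_hom (C := C) (R := R) X B
  let T := LinearMap.range (postC (X := X) C g)
  have hT : T ≠ ⊤ := by
    intro htop
    have : f ∈ T := htop ▸ Submodule.mem_top
    obtain ⟨u, hu⟩ := this
    exact hf ⟨u, hu⟩
  rw [isFiniteLength_iff_isNoetherian_isArtinian] at hB
  obtain ⟨_, _⟩ := hB
  have hlt := Submodule.length_lt (R := C) hT
  rw [(LinearEquiv.ofInjective (postC (X := X) C g) hinj).length_eq.symm] at hlt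
  unfold L
  have hA' := Module.length_ne_top_iff.mpr hA
  have hB' : Module.length C (X →ₗ[R] B) ≠ ⊤ := Module.length_ne_top
  lift Module.length C (X →ₗ[R] A) to ℕ using hA' with a ha
  lift Module.length C (X →ₗ[R] B) to ℕ using hB' with b hb
  simp only [ENat.toNat_coe]
  exact_mod_cast hlt

end FiniteLength

end Vale.Agent.Lib.P195
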