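import Vale.Agent.Lib.P195.Count

namespace Vale.Agent.Lib.P195

open CategoryTheory Abelian

universe u

/-- A family of vectors with a triangular family of functionals is linearly independent. -/
lemma tri_linearIndependent {V : Type*} [AddCommGroup V] [Module ℚ V] {m : ℕ} (x : Fin m → V)
    (l : Fin m → V →ₗ[ℚ] ℚ) (h0 : ∀ a b, b < a → l b (x a) = 0) (h1 : ∀ b, l b (x b) ≠ 0) :
    LinearIndependent ℚ x := by
  rw [Fintype.linearIndependent_iff]
  intro g hg i
  induction i using (wellFounded_lt (α := Fin m)).induction with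
  | _ i ih =>
    have h2 := congrArg (l i) hg
    rw [map_sum, map_zero, Finset.sum_eq_single i] at h2
    · rw [map_smul, smul_eq_mul] at h2
      exact (mul_eq_zero.mp h2).resolve_right (h1 i)
    · intro a _ hai
      rw [map_smul, smul_eq_mul]
      rcases lt_or_gt_of_ne hai with h | h
      · rw [ih a h, zero_mul]
      · rw [h0 a i h, mul_zero]
    · intro h
      exact absurd (Finset.mem_univ i) h

section Core

variable {C : Type*} [CommRing C] [IsArtinianRing C] {R : Type u} [Ring R] [Algebra C R]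
  [Module.Finite C R]

include C in
theorem core_bound (r : Res R) (hJ : Ring.jacobson R ^ 3 = ⊥) (m : ℕ)
    (hM : ∀ c, 1 ≤ c → c ≤ m → Subsingleton (Ext (r.N 0) (r.N 0) c))
    (hR : ∀ c, 1 ≤ c → c ≤ m + 1 → Subsingleton (Ext (r.N 0) (ModuleCat.of R R) c))
    (hnp : ¬ Module.Projective R (r.N 0))
    {ι : Type*} [Fintype ι] (I : ι → Type u) [∀ i, AddCommGroup (I i)] [∀ i, Module R (I i)]
    (hrep : ∀ (S : Type u) [AddCommGroup S] [Module R S] [IsSimpleModule R S],
      ∃ i, Nonempty (I i ≃ₗ[R] S)) :
    m ≤ 2 * Fintype.card ι := by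
  classical
  haveI hN : IsNoetherianRing R := isNoetherianRing_of_finite C R
  haveI : ∀ a, Module.Finite R (r.N a) := r.finN
  have hvecY : ∀ k : ℕ, ∃ y : ι → ℕ, ∀ (X : Type u) [AddCommGroup X] [Module R X]
      [Module.Finite R X], L C R X (radS R (r.N (k + 1))) = ∑ i, y i * L C R X (I i) :=
    fun k => exists_vec I hrep _ _ (r.killed_smul hJ k) rfl
  have hvecZ : ∀ k : ℕ, ∃ z : ι → ℕ, ∀ (X : Type u) [AddCommGroup X] [Module R X]
      [Module.Finite R X], L C R X (r.N (k + 1) ⧸ radS R (r.N (k + 1))) =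
        ∑ i, z i * L C R X (I i) :=
    fun k => exists_vec I hrep _ _ killed_quot rfl
  choose y hy using hvecY
  choose z hz using hvecZ
  let v : ℕ → ι → ℚ := fun a i => (L C R (r.N a) (I i) : ℚ)
  let x : Fin m → (ι ⊕ ι → ℚ) := fun k => Sum.elim (v (k + 1)) (v (k + 1 + 1))
  let l : Fin m → (ι ⊕ ι → ℚ) →ₗ[ℚ] ℚ := fun k =>
    ∑ i, (z k i : ℚ) • LinearMap.proj (Sum.inl i) - ∑ i, (y k i : ℚ) • LinearMap.proj (Sum.inr i)
  have hl : ∀ k k' : Fin m, l k (x k') =
      (L C R (r.N (k' + 1)) (r.N (k + 1) ⧸ radS R (r.N (k + 1))) : ℚ) -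
        (L C R (r.N (k' + 1 + 1)) (radS R (r.N (k + 1))) : ℚ) := by
    intro k k'
    rw [hy, hz]
    simp [l, x, v, LinearMap.sub_apply, LinearMap.sum_apply]
  have hli : LinearIndependent ℚ x := by
    apply tri_linearIndependent x l
    · intro a b hab
      rw [hl, count_gt (C := C) r hJ m hM hR (a := a) (k := b) hab (by omega)]
      simp
    · intro b
      rw [hl]
      have hnt : Nontrivial (r.N (b + 1)) := by
        by_contra hn
        rw [not_nontrivial_iff_subsingleton] at hn
        exact hnp (r.proj_of_subsingleton m hR b (by omega) hn)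
      have h := count_eq (C := C) r hJ m hM hR (k := b) (by omega) hnt
      intro h0
      have h3 : (L C R (r.N (b + 1)) (r.N (b + 1) ⧸ radS R (r.N (b + 1))) : ℚ) =
          (L C R (r.N (b + 1 + 1)) (radS R (r.N (b + 1))) : ℚ) := by linarith
      have h4 : L C R (r.N (b + 1)) (r.N (b + 1) ⧸ radS R (r.N (b + 1))) =
          L C R (r.N (b + 1 + 1)) (radS R (r.N (b + 1))) := by exact_mod_cast h3
      omega
  have hle := hli.fintype_card_le_finrank
  rw [Module.finrank_fintype_fun_eq_card, Fintype.card_sum, Fintype.card_fin] at hle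
  omega

/-- The Auslander-Reiten conjecture for Artin algebras with radical cube zero, in a strong form:
vanishing in a finite range of degrees, bounded in terms of the number of simple summands of
`R / rad R`, already forces projectivity. -/
theorem ar_finite_range (C : Type*) [CommRing C] [IsArtinianRing C] [Algebra C R]
    [Module.Finite C R] (hJ : Ring.jacobson R ^ 3 = ⊥) (M : ModuleCat.{u} R) [Module.Finite R M]
    (hM : ∀ c, 1 ≤ c → c ≤ 2 * (Module.length R (R ⧸ Ring.jacobson R)).toNat + 1 →
      Subsingleton (Ext M M c))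
    (hR : ∀ c, 1 ≤ c → c ≤ 2 * (Module.length R (R ⧸ Ring.jacobson R)).toNat + 2 →
      Subsingleton (Ext M (ModuleCat.of R R) c)) :
    Module.Projective R M := by
  haveI hN : IsNoetherianRing R := isNoetherianRing_of_finite C R
  haveI hA : IsArtinianRing R := isArtinianRing_of_finite C R
  obtain ⟨r, rfl⟩ := exists_res C M
  by_contra hnp
  obtain ⟨s, hF, simple, hcard, hrep⟩ := exists_simple_reps (R := R)
  have h := core_bound (C := C) r hJ _ hM hR hnp
    (fun m : s => ↥(m.1 : Submodule R (R ⧸ Ring.jacobson R))) hrep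
  omega

/-- The Auslander-Reiten conjecture for Artin algebras with radical cube zero. -/
theorem ar_rad_cube_zero (C : Type*) [CommRing C] [IsArtinianRing C] [Algebra C R]
    [Module.Finite C R] (hJ : Ring.jacobson R ^ 3 = ⊥) (M : ModuleCat.{u} R) [Module.Finite R M]
    (hM : ∀ c, 1 ≤ c → Subsingleton (Ext M M c))
    (hR : ∀ c, 1 ≤ c → Subsingleton (Ext M (ModuleCat.of R R) c)) :
    Module.Projective R M :=
  ar_finite_range C hJ M (fun c h _ => hM c h) (fun c h _ => hR c h)

end Core

end Vale.Agent.Lib.P195
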