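import Vale.Agent.Lib.P195.Semisimple

namespace Vale.Agent.Lib.P195

universe u

section Reduction

variable {R : Type u} [Ring R]

lemma exists_not_nilpotent_of_not_mem {a : R} (ha : a ∉ Ring.jacobson R) :
    ∃ b : R, ¬ IsNilpotent (b * a) := by
  rw [Ring.jacobson_eq_sInf_isMaximal] at ha
  simp only [Submodule.mem_sInf, not_forall] at ha
  obtain ⟨m, hm, ham⟩ := ha
  have hm' : Ideal.IsMaximal m := hm
  have hlt : m < m ⊔ Ideal.span {a} := by
    refine lt_of_le_of_ne le_sup_left fun h => ham ?_
    rw [h]
    exact Submodule.mem_sup_right (Ideal.subset_span rfl)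
  have htop : m ⊔ Ideal.span {a} = ⊤ := hm'.1.2 _ hlt
  have h1 : (1 : R) ∈ m ⊔ Ideal.span {a} := by rw [htop]; exact Submodule.mem_top
  obtain ⟨x, hx, y, hy, hxy⟩ := Submodule.mem_sup.mp h1
  obtain ⟨b, rfl⟩ := Submodule.mem_span_singleton.mp hy
  refine ⟨b, fun hnil => ?_⟩
  have hu : IsUnit (1 - b * a) := hnil.isUnit_one_sub
  have hxeq : x = 1 - b * a := by
    rw [← hxy]
    simp
  rw [← hxeq] at hu
  exact hm'.ne_top (Ideal.eq_top_of_isUnit_mem _ hx hu)

variable {P : Type u} [AddCommGroup P] [Module R P]

/-- If a submodule `K` of a finitely generated projective module `P` is not contained in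
`rad(R) P`, then `P` has a proper projective summand `P'` with `P' + K = P`. -/
lemma exists_reduction [IsArtinianRing R] [IsNoetherianRing R] [Module.Projective R P]
    [Module.Finite R P] (K : Submodule R P) {x : P} (hxK : x ∈ K)
    (hx : x ∉ Ring.jacobson R • (⊤ : Submodule R P)) :
    ∃ P' : Submodule R P, Module.Projective R P' ∧ P' ⊔ K = ⊤ ∧ P' ≠ ⊤ := by
  classical
  obtain ⟨n, q, hq⟩ := Module.Finite.exists_fin' R P
  obtain ⟨i, hi⟩ := Module.projective_lifting_property q LinearMap.id hq
  have hqi : ∀ p, q (i p) = p := fun p => LinearMap.congr_fun hi p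
  obtain ⟨j, hj⟩ : ∃ j, i x j ∉ Ring.jacobson R := by
    by_contra hall
    push Not at hall
    apply hx
    have hsum : x = ∑ j, i x j • q (Pi.single j 1) := by
      conv_lhs => rw [← hqi x, pi_eq_sum_univ' (i x)]
      simp [map_sum]
    rw [hsum]
    exact Submodule.sum_mem _ fun j _ => Submodule.smul_mem_smul (hall j) Submodule.mem_top
  let φ : P →ₗ[R] R := (LinearMap.proj j).comp i
  have hφ : φ x ∉ Ring.jacobson R := hj
  obtain ⟨b, hb⟩ := exists_not_nilpotent_of_not_mem hφ
  let T : Module.End R P := (LinearMap.toSpanSingleton R P (b • x)).comp φ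
  have hT : ∀ p, T p = φ p • b • x := fun p => rfl
  have hTpow : ∀ (k : ℕ) (p : P), (T ^ (k + 1)) p = (φ p * (b * φ x) ^ k) • b • x := by
    intro k
    induction k with
    | zero => intro p; simp [hT]
    | succ k ih =>
      intro p
      rw [pow_succ', Module.End.mul_apply, hT, ih]
      congr 1
      simp only [map_smul, smul_eq_mul, pow_succ, mul_assoc]
  obtain ⟨N, hN⟩ := ((LinearMap.eventually_isCompl_ker_pow_range_pow T).and
    (Filter.eventually_ge_atTop 1)).exists
  obtain ⟨hc, hN1⟩ := hN
  obtain ⟨k, rfl⟩ : ∃ k, N = k + 1 := ⟨N - 1, by omega⟩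
  refine ⟨LinearMap.ker (T ^ (k + 1)), ?_, ?_, ?_⟩
  · exact Module.Projective.of_split (Submodule.subtype _)
      (Submodule.projectionOnto _ _ hc) (Submodule.projectionOnto_comp_subtype hc)
  · have hle : LinearMap.range (T ^ (k + 1)) ≤ K := by
      rintro _ ⟨p, rfl⟩
      rw [hTpow]
      exact K.smul_mem _ (K.smul_mem _ hxK)
    exact top_le_iff.mp (hc.sup_eq_top ▸ sup_le_sup_left hle _)
  · intro htop
    have h0 : (T ^ (k + 1)) (b • x) = 0 := by
      have : b • x ∈ LinearMap.ker (T ^ (k + 1)) := htop ▸ Submodule.mem_top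
      exact this
    rw [hTpow] at h0
    apply hb
    refine ⟨k + 2, ?_⟩
    have h1 := congrArg φ h0
    simp only [map_smul, map_zero, smul_eq_mul] at h1
    rw [pow_succ, pow_succ']
    simpa [mul_assoc] using h1

end Reduction

section MinPres

variable (C : Type*) [CommRing C] [IsArtinianRing C] {R : Type u} [Ring R] [Algebra C R]
  [Module.Finite C R]

include C in
/-- Every finitely generated module is a quotient `P / K` of a finitely generated projective module
with `K` inside `rad(R) P`. -/
theorem exists_min_pres (X : Type u) [AddCommGroup X] [Module R X] [Module.Finite R X] :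
    ∃ (P : Type u) (_ : AddCommGroup P) (_ : Module R P), Module.Projective R P ∧
      Module.Finite R P ∧ ∃ π : P →ₗ[R] X, Function.Surjective π ∧
        LinearMap.ker π ≤ Ring.jacobson R • (⊤ : Submodule R P) := by
  haveI hA : IsArtinianRing R := isArtinianRing_of_finite C R
  haveI hN : IsNoetherianRing R := isNoetherianRing_of_finite C R
  have main : ∀ (n : ℕ) (P : Type u) [AddCommGroup P] [Module R P] [Module.Projective R P]
      [Module.Finite R P] (π : P →ₗ[R] X), Function.Surjective π →
      (Module.length R P).toNat = n →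
      ∃ (P : Type u) (_ : AddCommGroup P) (_ : Module R P), Module.Projective R P ∧
        Module.Finite R P ∧ ∃ π : P →ₗ[R] X, Function.Surjective π ∧
          LinearMap.ker π ≤ Ring.jacobson R • (⊤ : Submodule R P) := by
    intro n
    induction n using Nat.strong_induction_on with
    | _ n ih =>
      intro P _ _ _ _ π hπ hn
      by_cases hle : LinearMap.ker π ≤ Ring.jacobson R • (⊤ : Submodule R P)
      · exact ⟨P, _, _, inferInstance, inferInstance, π, hπ, hle⟩
      · obtain ⟨x, hxK, hx⟩ := SetLike.not_le_iff_exists.mp hle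
        obtain ⟨P', hproj, hsup, hne⟩ := exists_reduction (LinearMap.ker π) hxK hx
        have hsurj : Function.Surjective (π.comp P'.subtype) := by
          intro y
          obtain ⟨p, rfl⟩ := hπ y
          have hp : p ∈ P' ⊔ LinearMap.ker π := hsup ▸ Submodule.mem_top
          obtain ⟨a, ha, c, hc, rfl⟩ := Submodule.mem_sup.mp hp
          refine ⟨⟨a, ha⟩, ?_⟩
          simp [LinearMap.mem_ker.mp hc]
        have hlt : (Module.length R P').toNat < n := by
          rw [← hn]
          have h1 := Submodule.length_lt hne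
          have h2 : Module.length R P ≠ ⊤ := Module.length_ne_top
          have h3 : Module.length R P' ≠ ⊤ := Module.length_ne_top
          lift Module.length R P to ℕ using h2 with a ha
          lift Module.length R P' to ℕ using h3 with c hc
          simpa using h1
        exact ih _ hlt P' (π.comp P'.subtype) hsurj rfl
  obtain ⟨n, q, hq⟩ := Module.Finite.exists_fin' R X
  exact main _ (Fin n → R) q hq rfl

end MinPres

end Vale.Agent.Lib.P195
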