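import Vale.Agent.Lib.P195.ITDefs

namespace Vale.Agent.Lib.P195

universe u

open CategoryTheory

/-- `V` is a generator of the category of finitely generated `R`-modules: every finitely generated
module is a quotient of a finite direct sum of copies of `V`. -/
def IsGenerator (R : Type u) [Ring R] (V : Type u) [AddCommGroup V] [Module R V] : Prop :=
  ∀ (X : ModuleCat.{u} R) [Module.Finite R X], ∃ (m : ℕ) (g : (Fin m → V) →ₗ[R] X),
    Function.Surjective g

/-- `V` is a cogenerator of the category of finitely generated `R`-modules: every finitely generated
module embeds in a finite direct sum of copies of `V`. -/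
def IsCogenerator (R : Type u) [Ring R] (V : Type u) [AddCommGroup V] [Module R V] : Prop :=
  ∀ (X : ModuleCat.{u} R) [Module.Finite R X], ∃ (m : ℕ) (f : X →ₗ[R] (Fin m → V)),
    Function.Injective f

/-- `V` witnesses representation dimension at most three: it is a finitely generated generator
and cogenerator and `End_R(V)` has global dimension at most three (every finitely generated right
`End_R(V)`-module, that is, left module over the opposite ring, has projective dimension at most
three). -/
structure IsRepDimLEThree (R : Type u) [Ring R] (V : Type u) [AddCommGroup V] [Module R V] : Prop where
  finite : Module.Finite R V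
  generator : IsGenerator R V
  cogenerator : IsCogenerator R V
  gldim : ∀ (X : ModuleCat.{u} (Module.End R V)ᵐᵒᵖ) [Module.Finite (Module.End R V)ᵐᵒᵖ X],
    HasProjectiveDimensionLE X 3

end Vale.Agent.Lib.P195
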