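import Vale.Agent.Lib.P195.TwoTerm
import Vale.Agent.Lib.P195.RepDimDefs

namespace Vale.Agent.Lib.P195

open CategoryTheory Abelian

universe u

section HomOp

variable {R : Type u} [Ring R] {V : Type u} [AddCommGroup V] [Module R V]

/-- `Hom_R(V, W)` as a right module over `End_R(V)`. -/
@[reducible] def homOp (V W : Type*) [AddCommGroup V] [Module R V] [AddCommGroup W] [Module R W] :
    Module (Module.End R V)ᵐᵒᵖ (V →ₗ[R] W) where
  smul a f := f.comp a.unop
  one_smul _ := rfl
  mul_smul _ _ _ := rfl
  smul_zero _ := rfl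
  smul_add _ _ _ := rfl
  add_smul _ _ f := LinearMap.comp_add _ _ f
  zero_smul f := LinearMap.comp_zero f

attribute [local instance] homOp

lemma homOp_smul {W : Type*} [AddCommGroup W] [Module R W] (a : (Module.End R V)ᵐᵒᵖ)
    (f : V →ₗ[R] W) : a • f = f.comp a.unop := rfl

variable {W X Y : Type*} [AddCommGroup W] [Module R W] [AddCommGroup X] [Module R X]
  [AddCommGroup Y] [Module R Y]

/-- Postcomposition as a map of right `End_R(V)`-modules. -/
def postOp (g : X →ₗ[R] Y) : (V →ₗ[R] X) →ₗ[(Module.End R V)ᵐᵒᵖ] (V →ₗ[R] Y) where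
  toFun h := g.comp h
  map_add' a b := LinearMap.comp_add a b g
  map_smul' _ _ := rfl

@[simp] lemma postOp_apply (g : X →ₗ[R] Y) (h : V →ₗ[R] X) : postOp g h = g.comp h := rfl

/-- `Hom_R(V, V^m)` is free of rank `m` over `End_R(V)`. -/
def homPi (m : ℕ) : (Fin m → (Module.End R V)ᵐᵒᵖ) ≃ₗ[(Module.End R V)ᵐᵒᵖ] (V →ₗ[R] (Fin m → V)) where
  toFun a := LinearMap.pi fun k => (a k).unop
  map_add' a b := by
    ext v k
    simp
  map_smul' c a := by
    ext v k
    rfl
  invFun h k := MulOpposite.op ((LinearMap.proj k).comp h)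
  left_inv a := by
    funext k
    rfl
  right_inv h := by
    ext v k
    rfl

lemma projective_homPi (m : ℕ) :
    Module.Projective (Module.End R V)ᵐᵒᵖ (V →ₗ[R] (Fin m → V)) :=
  Module.Projective.of_equiv (homPi m)

lemma finite_homPi (m : ℕ) :
    Module.Finite (Module.End R V)ᵐᵒᵖ (V →ₗ[R] (Fin m → V)) :=
  Module.Finite.equiv (homPi m)

/-- Generator data gives the decomposition of the identity of `R`. -/
lemma exists_gen_data (h : InAdd R V R) : ∃ (m : ℕ) (τ : Fin m → V) (ϖ : Fin m → V →ₗ[R] R),
    ∑ k, ϖ k (τ k) = 1 := by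
  obtain ⟨m, s, p, hps⟩ := h
  refine ⟨m, s 1, fun k => p.comp (LinearMap.single R (fun _ : Fin m => V) k), ?_⟩
  have h1 : ∑ k : Fin m, LinearMap.single R (fun _ : Fin m => V) k (s 1 k) = s 1 := by
    simpa using Finset.univ_sum_single (s 1)
  have h2 : p (s 1) = 1 := LinearMap.congr_fun hps 1
  calc ∑ k, (p.comp (LinearMap.single R (fun _ : Fin m => V) k)) (s 1 k)
      = p (∑ k, LinearMap.single R (fun _ : Fin m => V) k (s 1 k)) := by simp [map_sum]
    _ = 1 := by rw [h1, h2]

/-- A generator detects elements through maps from `V`. -/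
lemma eq_of_comp_eq_comp (h : InAdd R V R) (g g' : X →ₗ[R] Y)
    (hgg : ∀ f : V →ₗ[R] X, g.comp f = g'.comp f) : g = g' := by
  obtain ⟨m, τ, ϖ, hτ⟩ := exists_gen_data h
  ext x
  have hx : x = ∑ k, ((LinearMap.toSpanSingleton R X x).comp (ϖ k)) (τ k) := by
    calc x = (∑ k, ϖ k (τ k)) • x := by rw [hτ, one_smul]
      _ = _ := by
        rw [Finset.sum_smul]
        rfl
  rw [hx, map_sum, map_sum]
  refine Finset.sum_congr rfl fun k _ => ?_
  exact LinearMap.congr_fun (hgg _) _

/-- Fullness of `Hom_R(V, -)` for a generator `V`. -/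
lemma exists_of_generator (h : InAdd R V R)
    (ψ : (V →ₗ[R] X) →ₗ[(Module.End R V)ᵐᵒᵖ] (V →ₗ[R] Y)) :
    ∃ g : X →ₗ[R] Y, ∀ f : V →ₗ[R] X, g.comp f = ψ f := by
  obtain ⟨m, τ, ϖ, hτ⟩ := exists_gen_data h
  let hh : X → Fin m → (V →ₗ[R] X) := fun x k => (LinearMap.toSpanSingleton R X x).comp (ϖ k)
  let g₀ : X →+ Y :=
    { toFun := fun x => ∑ k, ψ (hh x k) (τ k)
      map_zero' := by
        have : ∀ k, hh 0 k = 0 := fun k => by
          ext v
          simp [hh]
        simp [this]
      map_add' := fun x x' => by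
        have : ∀ k, hh (x + x') k = hh x k + hh x' k := fun k => by
          ext v
          simp [hh]
        simp [this, Finset.sum_add_distrib] }
  have hg₀ : ∀ (f : V →ₗ[R] X) (v : V), g₀ (f v) = ψ f v := by
    intro f v
    change ∑ k, ψ (hh (f v) k) (τ k) = ψ f v
    let γ : Fin m → Module.End R V := fun k => (LinearMap.toSpanSingleton R V v).comp (ϖ k)
    have h1 : ∀ k, hh (f v) k = MulOpposite.op (γ k) • f := fun k => by
      ext w
      change ϖ k w • f v = f (ϖ k w • v)
      rw [map_smul]
    have h2 : ∀ k, ψ (hh (f v) k) (τ k) = ψ f (ϖ k (τ k) • v) := fun k => by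
      rw [h1, map_smul]
      rfl
    calc _ = ∑ k, ψ f (ϖ k (τ k) • v) := Finset.sum_congr rfl fun k _ => h2 k
      _ = ψ f (∑ k, ϖ k (τ k) • v) := (map_sum _ _ _).symm
      _ = ψ f v := by rw [← Finset.sum_smul, hτ, one_smul]
  have hx : ∀ x : X, x = ∑ k, hh x k (τ k) := fun x => by
    calc x = (∑ k, ϖ k (τ k)) • x := by rw [hτ, one_smul]
      _ = _ := by
        rw [Finset.sum_smul]
        rfl
  refine ⟨{ toFun := g₀, map_add' := g₀.map_add, map_smul' := fun r x => ?_ }, fun f => ?_⟩
  · have h3 : r • x = ∑ k, hh x k (r • τ k) := by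
      conv_lhs => rw [hx x]
      rw [Finset.smul_sum]
      exact Finset.sum_congr rfl fun k _ => (map_smul _ _ _).symm
    rw [RingHom.id_apply, h3, map_sum]
    have h4 : g₀ x = ∑ k, ψ (hh x k) (τ k) := rfl
    rw [h4, Finset.smul_sum]
    refine Finset.sum_congr rfl fun k _ => ?_
    rw [hg₀, map_smul]
  · ext v
    exact hg₀ f v

/-- If `V` is a generator and `Hom_R(V, W)` is a finitely generated projective right
`End_R(V)`-module, then `W ∈ add V`. -/
lemma inAdd_of_projective (h : InAdd R V R)
    [Module.Projective (Module.End R V)ᵐᵒᵖ (V →ₗ[R] W)]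
    [Module.Finite (Module.End R V)ᵐᵒᵖ (V →ₗ[R] W)] : InAdd R V W := by
  obtain ⟨n, q, hq⟩ := Module.Finite.exists_fin' (Module.End R V)ᵐᵒᵖ (V →ₗ[R] W)
  obtain ⟨i, hi⟩ := Module.projective_lifting_property q LinearMap.id hq
  obtain ⟨ρ, hρ⟩ := exists_of_generator h (q.comp (homPi n).symm.toLinearMap)
  obtain ⟨σ, hσ⟩ := exists_of_generator h ((homPi n).toLinearMap.comp i)
  refine ⟨n, σ, ρ, eq_of_comp_eq_comp h _ _ fun f => ?_⟩
  rw [LinearMap.comp_assoc, hσ, hρ]
  have := LinearMap.congr_fun hi f
  simpa using this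

end HomOp

section Step

/-- Dimension shift along a short exact sequence with projective middle term. -/
lemma pd_step {S : Type u} [Ring S] {A B D : Type u} [AddCommGroup A] [Module S A] [AddCommGroup B]
    [Module S B] [AddCommGroup D] [Module S D] (f : A →ₗ[S] B) (g : B →ₗ[S] D)
    (hf : Function.Injective f) (hg : Function.Surjective g) (hfg : Function.Exact f g)
    [Module.Projective S B] (n : ℕ) (h : HasProjectiveDimensionLT (ModuleCat.of S D) (n + 2)) :
    HasProjectiveDimensionLT (ModuleCat.of S A) (n + 1) := by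
  let T : ShortComplex (ModuleCat.{u} S) :=
    ShortComplex.mk (ModuleCat.ofHom f) (ModuleCat.ofHom g) (by
      ext x
      exact (hfg (f x)).mpr ⟨x, rfl⟩)
  have hT : T.ShortExact :=
    { exact := by
        rw [ShortComplex.ShortExact.moduleCat_exact_iff_function_exact]
        exact hfg
      mono_f := (ModuleCat.mono_iff_injective _).mpr hf
      epi_g := (ModuleCat.epi_iff_surjective _).mpr hg }
  have hP : Projective (ModuleCat.of S B) := (IsProjective.iff_projective B).mp inferInstance
  exact (hT.hasProjectiveDimensionLT_X₃_iff n hP).mp h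

end Step

section Main

variable {C : Type*} [CommRing C] [IsArtinianRing C] {R : Type u} [Ring R] [Algebra C R]
  [Module.Finite C R]

attribute [local instance] homModule homOp

variable (C) in
include C in
/-- `Hom_R(V, W)` is finitely generated over `End_R(V)`, being of finite length over `C`. -/
lemma finite_homOp (V W : Type*) [AddCommGroup V] [Module R V] [AddCommGroup W] [Module R W]
    [Module.Finite R V] [Module.Finite R W] :
    Module.Finite (Module.End R V)ᵐᵒᵖ (V →ₗ[R] W) := by
  have h := isFiniteLength_hom (C := C) (R := R) V W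
  rw [isFiniteLength_iff_isNoetherian_isArtinian] at h
  have : IsNoetherian C (V →ₗ[R] W) := h.1
  obtain ⟨S, hS⟩ := Module.Finite.fg_top (R := C) (M := V →ₗ[R] W)
  refine ⟨⟨S, ?_⟩⟩
  rw [eq_top_iff]
  rintro f -
  have hf : f ∈ Submodule.span C (S : Set (V →ₗ[R] W)) := hS ▸ Submodule.mem_top
  induction hf using Submodule.span_induction with
  | mem x hx => exact Submodule.subset_span hx
  | zero => exact Submodule.zero_mem _
  | add x y _ _ hx hy => exact Submodule.add_mem _ hx hy
  | smul c x _ hx =>
    have : c • x = (MulOpposite.op (centralEnd C V c : Module.End R V) : (Module.End R V)ᵐᵒᵖ) • x := by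
      ext v
      change algebraMap C R c • x v = x (algebraMap C R c • v)
      rw [map_smul]
    rw [this]
    exact Submodule.smul_mem _ _ hx

variable (C) in
include C in
/-- An algebra of representation dimension at most three is `0`-Igusa-Todorov: this is the
Igusa-Todorov lemma. -/
theorem isIgusaTodorov_of_repDim (V : Type u) [AddCommGroup V] [Module R V]
    (h : IsRepDimLEThree R V) : IsIgusaTodorov R 0 V := by
  intro N hN
  have hfN : Module.Finite R N := hN
  have hfV : Module.Finite R V := h.finite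
  have hNo : IsNoetherianRing R := isNoetherianRing_of_finite C R
  -- the generator
  have hgen : InAdd R V R := by
    obtain ⟨m, g, hg⟩ := h.generator (ModuleCat.of R R)
    obtain ⟨s, hs⟩ := Module.projective_lifting_property g (LinearMap.id : R →ₗ[R] R) hg
    exact ⟨m, s, g, hs⟩
  -- the copresentation
  obtain ⟨a, f₀, hf₀⟩ := h.cogenerator N
  have hfq : Module.Finite R ((Fin a → V) ⧸ LinearMap.range f₀) := inferInstance
  obtain ⟨b, f₁', hf₁'⟩ := h.cogenerator (ModuleCat.of R ((Fin a → V) ⧸ LinearMap.range f₀))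
  let f₁ : (Fin a → V) →ₗ[R] (Fin b → V) := f₁'.comp (LinearMap.range f₀).mkQ
  have hex : Function.Exact f₀ f₁ := by
    intro x
    constructor
    · intro hx
      have h1 : (LinearMap.range f₀).mkQ x = 0 := hf₁' (by simpa [f₁] using hx)
      simpa using h1
    · rintro ⟨y, rfl⟩
      have h1 : (LinearMap.range f₀).mkQ (f₀ y) = 0 := by simp
      simp [f₁, h1]
  -- the second syzygy over the endomorphism ring
  let I := LinearMap.range (postOp (V := V) f₁)
  have hPb := projective_homPi (R := R) (V := V) b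
  have hPa := projective_homPi (R := R) (V := V) a
  have hFb := finite_homPi (R := R) (V := V) b
  have hX : HasProjectiveDimensionLT (ModuleCat.of (Module.End R V)ᵐᵒᵖ
      ((V →ₗ[R] (Fin b → V)) ⧸ I)) 4 := h.gldim (ModuleCat.of _ _)
  have h1 : HasProjectiveDimensionLT (ModuleCat.of (Module.End R V)ᵐᵒᵖ I) 3 :=
    pd_step I.subtype I.mkQ I.injective_subtype I.mkQ_surjective (LinearMap.exact_subtype_mkQ I) 2 hX
  have hinj : Function.Injective (postOp (V := V) f₀) := by
    intro u v huv
    ext x
    exact hf₀ (LinearMap.congr_fun huv x)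
  have hexF : Function.Exact (postOp (V := V) f₀) (postOp (V := V) f₁).rangeRestrict := by
    intro u
    constructor
    · intro hu
      have hu' : f₁.comp u = 0 := congrArg Subtype.val hu
      have hmem : ∀ x, u x ∈ LinearMap.range f₀ := fun x =>
        (hex (u x)).mp (LinearMap.congr_fun hu' x)
      refine ⟨(LinearEquiv.ofInjective f₀ hf₀).symm.toLinearMap.comp (u.codRestrict _ hmem), ?_⟩
      ext x k
      have := (LinearEquiv.ofInjective f₀ hf₀).apply_symm_apply (u.codRestrict _ hmem x)
      simp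
    · rintro ⟨v, rfl⟩
      apply Subtype.ext
      ext x k
      exact congrFun ((hex (f₀ (v x))).mpr ⟨v x, rfl⟩) k
  have h2 : HasProjectiveDimensionLT (ModuleCat.of (Module.End R V)ᵐᵒᵖ (V →ₗ[R] N)) 2 :=
    pd_step (postOp f₀) (postOp (V := V) f₁).rangeRestrict hinj
      (LinearMap.surjective_rangeRestrict _) hexF 1 h1
  -- the presentation
  have hfF : Module.Finite (Module.End R V)ᵐᵒᵖ (V →ₗ[R] N) := finite_homOp C V N
  obtain ⟨c, hh, hspan⟩ := Module.Finite.exists_fin (R := (Module.End R V)ᵐᵒᵖ) (M := V →ₗ[R] N)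
  let g : (Fin c → V) →ₗ[R] N := ∑ k, (hh k).comp (LinearMap.proj k)
  have hgapply : ∀ y : Fin c → V, g y = ∑ k, hh k (y k) := fun y => by
    simp [g, LinearMap.sum_apply]
  have hsurj : Function.Surjective (postOp (V := V) g) := by
    intro u
    have hu : u ∈ Submodule.span (Module.End R V)ᵐᵒᵖ (Set.range hh) := hspan ▸ Submodule.mem_top
    obtain ⟨e, he⟩ := (Submodule.mem_span_range_iff_exists_fun _).mp hu
    refine ⟨homPi (R := R) (V := V) c e, ?_⟩
    rw [← he]
    ext v
    simp only [postOp_apply, LinearMap.comp_apply, hgapply, LinearMap.sum_apply]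
    rfl
  let W := LinearMap.ker g
  have hexK : Function.Exact (postOp (V := V) W.subtype) (postOp (V := V) g) := by
    intro u
    constructor
    · intro hu
      have hmem : ∀ x, u x ∈ W := fun x => LinearMap.congr_fun hu x
      exact ⟨u.codRestrict W hmem, rfl⟩
    · rintro ⟨v, rfl⟩
      ext x
      exact (v x).2
  have hinjK : Function.Injective (postOp (V := V) W.subtype) := by
    intro u v huv
    apply LinearMap.ext
    intro x
    exact Subtype.ext (LinearMap.congr_fun huv x)
  have hPc := projective_homPi (R := R) (V := V) c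
  have h3 : HasProjectiveDimensionLT (ModuleCat.of (Module.End R V)ᵐᵒᵖ (V →ₗ[R] W)) 1 :=
    pd_step (postOp W.subtype) (postOp g) hinjK hsurj hexK 0 h2
  have hPW : Module.Projective (Module.End R V)ᵐᵒᵖ (V →ₗ[R] W) :=
    (IsProjective.iff_projective _).mpr (projective_iff_hasProjectiveDimensionLT_one.mpr h3)
  have hFW : Module.Finite (Module.End R V)ᵐᵒᵖ (V →ₗ[R] W) := finite_homOp C V W
  have hW : InAdd R V W := inAdd_of_projective hgen
  have hgs : Function.Surjective g := by
    intro y
    obtain ⟨m, τ, ϖ, hτ⟩ := exists_gen_data hgen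
    have hy : y = ∑ k, ((LinearMap.toSpanSingleton R N y).comp (ϖ k)) (τ k) := by
      calc y = (∑ k, ϖ k (τ k)) • y := by rw [hτ, one_smul]
        _ = _ := by
          rw [Finset.sum_smul]
          rfl
    choose l hl using fun k => hsurj ((LinearMap.toSpanSingleton R N y).comp (ϖ k))
    refine ⟨∑ k, l k (τ k), ?_⟩
    rw [map_sum]
    conv_rhs => rw [hy]
    refine Finset.sum_congr rfl fun k _ => ?_
    exact LinearMap.congr_fun (hl k) (τ k)
  refine ⟨ModuleCat.of R (Fin c → V), ModuleCat.of R W, W.subtype, g,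
    ⟨c, LinearMap.id, LinearMap.id, rfl⟩, hW, W.injective_subtype, hgs,
    LinearMap.exact_subtype_ker_map g⟩

/-- The Auslander-Reiten conjecture for Artin algebras of representation dimension at most three. -/
theorem ar_of_repDim (C : Type*) [CommRing C] [IsArtinianRing C] [Algebra C R] [Module.Finite C R]
    (V : Type u) [AddCommGroup V] [Module R V] (h : IsRepDimLEThree R V)
    (M : ModuleCat.{u} R) [Module.Finite R M]
    (hM : ∀ c : ℕ, 1 ≤ c → Subsingleton (Ext M M c))
    (hR : ∀ c : ℕ, 1 ≤ c → Subsingleton (Ext M (ModuleCat.of R R) c)) :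
    Module.Projective R M := by
  have := h.finite
  exact ar_of_igusaTodorov C 0 V (isIgusaTodorov_of_repDim C V h) M hM hR

end Main

end Vale.Agent.Lib.P195
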