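import Vale.Agent.Lib.P195.ExtShift

namespace Vale.Agent.Lib.P195

open CategoryTheory Abelian

universe u

/-- A minimal projective resolution, given by its syzygies. -/
structure Res (R : Type u) [Ring R] where
  N : ℕ → ModuleCat.{u} R
  P : ℕ → ModuleCat.{u} R
  proj : ∀ a, Module.Projective R (P a)
  finP : ∀ a, Module.Finite R (P a)
  finN : ∀ a, Module.Finite R (N a)
  π : ∀ a, P a →ₗ[R] N a
  i : ∀ a, N (a + 1) →ₗ[R] P a
  surj : ∀ a, Function.Surjective (π a)
  inj : ∀ a, Function.Injective (i a)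
  exact : ∀ a, Function.Exact (i a) (π a)
  rad : ∀ a, LinearMap.range (i a) ≤ Ring.jacobson R • (⊤ : Submodule R (P a))

variable {R : Type u} [Ring R]

/-- Minimal resolutions exist over Artin algebras. -/
theorem exists_res (C : Type*) [CommRing C] [IsArtinianRing C] [Algebra C R] [Module.Finite C R]
    (M : ModuleCat.{u} R) [Module.Finite R M] : ∃ r : Res R, r.N 0 = M := by
  haveI hN : IsNoetherianRing R := isNoetherianRing_of_finite C R
  let Fg := {X : ModuleCat.{u} R // Module.Finite R X}
  have step : ∀ X : Fg, ∃ (Y : Fg) (P : ModuleCat.{u} R) (_ : Module.Projective R P)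
      (_ : Module.Finite R P) (π : P →ₗ[R] X.1) (i : Y.1 →ₗ[R] P), Function.Surjective π ∧
      Function.Injective i ∧ Function.Exact i π ∧
      LinearMap.range i ≤ Ring.jacobson R • (⊤ : Submodule R P) := by
    rintro ⟨X, hX⟩
    obtain ⟨P, _, _, hP, hF, π, hπ, hker⟩ := exists_min_pres (R := R) C X
    refine ⟨⟨ModuleCat.of R (LinearMap.ker π), inferInstanceAs (Module.Finite R (LinearMap.ker π))⟩,
      ModuleCat.of R P, hP, hF, π, (LinearMap.ker π).subtype, hπ, (LinearMap.ker π).injective_subtype,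
      ?_, ?_⟩
    · exact LinearMap.exact_subtype_ker_map π
    · rw [Submodule.range_subtype]
      exact hker
  choose Y P hP hF π i h using step
  let seq : ℕ → Fg := fun n => Nat.rec ⟨M, inferInstance⟩ (fun _ X => Y X) n
  refine ⟨{ N := fun a => (seq a).1
            P := fun a => P (seq a)
            proj := fun a => hP (seq a)
            finP := fun a => hF (seq a)
            finN := fun a => (seq a).2
            π := fun a => π (seq a)
            i := fun a => i (seq a)
            surj := fun a => (h (seq a)).1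
            inj := fun a => (h (seq a)).2.1
            exact := fun a => (h (seq a)).2.2.1
            rad := fun a => (h (seq a)).2.2.2 }, rfl⟩

namespace Res

variable (r : Res R)

/-- The short exact sequence `0 → N (a+1) → P a → N a → 0`. -/
noncomputable def S (a : ℕ) : ShortComplex (ModuleCat.{u} R) :=
  ShortComplex.mk (X₁ := r.N (a + 1)) (X₂ := r.P a) (X₃ := r.N a)
    (ModuleCat.ofHom (r.i a)) (ModuleCat.ofHom (r.π a)) (by
      ext x
      exact (r.exact a (r.i a x)).mpr ⟨x, rfl⟩)

lemma shortExact (a : ℕ) : (r.S a).ShortExact where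
  exact := by
    rw [ShortComplex.ShortExact.moduleCat_exact_iff_function_exact]
    exact r.exact a
  mono_f := (ModuleCat.mono_iff_injective _).mpr (r.inj a)
  epi_g := (ModuleCat.epi_iff_surjective _).mpr (r.surj a)

/-- Left shift along the resolution. -/
lemma ext_left (Y : ModuleCat.{u} R) : ∀ (a c : ℕ), Subsingleton (Ext (r.N 0) Y (a + (c + 1))) →
    Subsingleton (Ext (r.N a) Y (c + 1)) := by
  intro a
  induction a with
  | zero =>
    intro c h
    simpa using h
  | succ a ih =>
    intro c h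
    haveI : Projective (r.S a).X₂ := by
      haveI := r.proj a
      exact ModuleCat.projective_of_categoryTheory_projective (r.P a)
    have h' : Subsingleton (Ext (r.N 0) Y (a + (c + 1 + 1))) := by
      have e : a + 1 + (c + 1) = a + (c + 1 + 1) := by omega
      rwa [e] at h
    exact ext_shift_left (r.shortExact a) Y c (ih (c + 1) h')

/-- Right shift along the resolution. -/
lemma ext_right (m : ℕ)
    (hM : ∀ c, 1 ≤ c → c ≤ m → Subsingleton (Ext (r.N 0) (r.N 0) c))
    (hR : ∀ c, 1 ≤ c → c ≤ m + 1 → Subsingleton (Ext (r.N 0) (ModuleCat.of R R) c)) :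
    ∀ b c, b + 1 ≤ c → c ≤ m + b → c ≤ m + 1 → Subsingleton (Ext (r.N 0) (r.N b) c) := by
  intro b
  induction b with
  | zero =>
    intro c h1 h2 _
    exact hM c (by omega) (by omega)
  | succ b ih =>
    intro c h1 h2 h3
    obtain ⟨c', rfl⟩ : ∃ c', c = c' + 1 := ⟨c - 1, by omega⟩
    haveI := r.proj b
    haveI := r.finP b
    exact ext_shift_right (r.shortExact b) (r.N 0) c'
      (ih c' (by omega) (by omega) (by omega))
      (ext_subsingleton_proj (r.N 0) (r.P b) (c' + 1) (hR (c' + 1) (by omega) h3))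

/-- The basic vanishing. -/
lemma ext_one (m : ℕ)
    (hM : ∀ c, 1 ≤ c → c ≤ m → Subsingleton (Ext (r.N 0) (r.N 0) c))
    (hR : ∀ c, 1 ≤ c → c ≤ m + 1 → Subsingleton (Ext (r.N 0) (ModuleCat.of R R) c))
    {a b : ℕ} (hb : 1 ≤ b) (hba : b ≤ a) (ham : a ≤ m) :
    Subsingleton (Ext (r.N a) (r.N b) 1) :=
  r.ext_left (r.N b) a 0 (r.ext_right m hM hR b (a + (0 + 1)) (by omega) (by omega) (by omega))

/-- Extension of maps along the syzygy inclusion, in module terms. -/
lemma exists_ext_of_ext_one {a : ℕ} {Y : ModuleCat.{u} R} (h : Subsingleton (Ext (r.N a) Y 1))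
    (f : r.N (a + 1) →ₗ[R] Y) : ∃ g : r.P a →ₗ[R] Y, g.comp (r.i a) = f := by
  obtain ⟨g, hg⟩ := exists_ext_of_subsingleton (r.shortExact a) Y h (ModuleCat.ofHom f)
  refine ⟨g.hom, ?_⟩
  exact congrArg ModuleCat.Hom.hom hg

variable {r} in
lemma map_mem_of_ext {a : ℕ} {Y : Type u} [AddCommGroup Y] [Module R Y]
    (g : r.P a →ₗ[R] Y) (x : r.N (a + 1)) :
    g (r.i a x) ∈ Ring.jacobson R • (⊤ : Submodule R Y) := by
  have h1 : r.i a x ∈ Ring.jacobson R • (⊤ : Submodule R (r.P a)) := r.rad a ⟨x, rfl⟩
  have h2 := Submodule.mem_map_of_mem (f := g) h1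
  rw [Submodule.map_smul''] at h2
  exact (smul_mono_right (Ring.jacobson R) (le_top : Submodule.map g ⊤ ≤ ⊤)) h2

end Res

end Vale.Agent.Lib.P195
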