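import Vale.Agent.Lib.P195.HomLen

namespace Vale.Agent.Lib.P195

universe u v w

attribute [local instance] homModule

section Base

variable (C : Type*) [CommRing C] [IsArtinianRing C] (R : Type*) [Ring R] [Algebra C R]
  [Module.Finite C R]

include C in
lemma isArtinianRing_of_finite : IsArtinianRing R :=
  isArtinian_of_tower C (inferInstance : IsArtinian C R)

include C in
lemma isNoetherianRing_of_finite : IsNoetherianRing R :=
  isNoetherian_of_tower C (inferInstance : IsNoetherian C R)

end Base

section Killed

variable {R : Type*} [Ring R]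

/-- `Y` is killed by the Jacobson radical. -/
def Killed (Y : Type*) [AddCommGroup Y] [Module R Y] : Prop :=
  ∀ r ∈ Ring.jacobson R, ∀ y : Y, r • y = 0

lemma isSemisimpleModule_quot [IsSemiprimaryRing R] :
    IsSemisimpleModule R (R ⧸ Ring.jacobson R) := by
  let l : (R ⧸ Ring.jacobson R) →ₛₗ[Ideal.Quotient.mk (Ring.jacobson R)] (R ⧸ Ring.jacobson R) :=
    ⟨AddHom.id _, fun _ _ => rfl⟩
  exact (l.isSemisimpleModule_iff_of_bijective Function.bijective_id).mpr inferInstance

lemma semisimple_of_killed [IsSemiprimaryRing R] {Y : Type*} [AddCommGroup Y] [Module R Y]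
    (hY : Killed (R := R) Y) : IsSemisimpleModule R Y := by
  haveI := isSemisimpleModule_quot (R := R)
  let g : Y → (R ⧸ Ring.jacobson R) →ₗ[R] Y := fun y =>
    (Ring.jacobson R).liftQ (LinearMap.toSpanSingleton R Y y) (fun r hr => hY r hr y)
  have hg : ⨆ y, LinearMap.range (g y) = ⊤ := by
    refine top_le_iff.mp fun y _ => Submodule.mem_iSup_of_mem y ⟨Submodule.Quotient.mk 1, ?_⟩
    change (LinearMap.toSpanSingleton R Y y) 1 = y
    simp
  exact isSemisimpleModule_of_isSemisimpleModule_submodule' (fun y => .range (g y)) hg

lemma killed_quot {Y : Type*} [AddCommGroup Y] [Module R Y] :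
    Killed (R := R) (Y ⧸ (Ring.jacobson R • (⊤ : Submodule R Y))) := by
  intro r hr y
  obtain ⟨y, rfl⟩ := Submodule.mkQ_surjective _ y
  rw [← map_smul, Submodule.mkQ_apply, Submodule.Quotient.mk_eq_zero]
  exact Submodule.smul_mem_smul hr Submodule.mem_top

lemma killed_quotient {Y : Type*} [AddCommGroup Y] [Module R Y] (hY : Killed (R := R) Y)
    (N : Submodule R Y) : Killed (R := R) (Y ⧸ N) := by
  intro r hr y
  obtain ⟨y, rfl⟩ := Submodule.mkQ_surjective _ y
  rw [← map_smul, hY r hr y, map_zero]

lemma killed_submodule {Y : Type*} [AddCommGroup Y] [Module R Y] (hY : Killed (R := R) Y)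
    (N : Submodule R Y) : Killed (R := R) N := by
  intro r hr y
  exact Subtype.ext (hY r hr y)

/-- The simple modules are, up to isomorphism, among finitely many modules, as many as
the length of `R / rad R`. -/
lemma exists_simple_reps [IsSemiprimaryRing R] [IsArtinianRing R] [IsNoetherianRing R] :
    ∃ (s : Set (Submodule R (R ⧸ Ring.jacobson R))) (_ : Fintype s),
      (∀ m : s, IsSimpleModule R m.1) ∧
      Fintype.card s = (Module.length R (R ⧸ Ring.jacobson R)).toNat ∧
      ∀ (S : Type v) [AddCommGroup S] [Module R S] [IsSimpleModule R S],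
        ∃ m : s, Nonempty (m.1 ≃ₗ[R] S) := by
  haveI := isSemisimpleModule_quot (R := R)
  obtain ⟨s, e, ind, simple⟩ :=
    IsSemisimpleModule.exists_linearEquiv_dfinsupp R (R ⧸ Ring.jacobson R)
  have hfin : s.Finite := WellFoundedGT.finite_of_sSupIndep ind
  haveI : Finite s := hfin.to_subtype
  letI hF : Fintype s := Fintype.ofFinite s
  classical
  refine ⟨s, hF, simple, ?_, ?_⟩
  · have h1 := (e.trans (DFinsupp.linearEquivFunOnFintype (R := R) (M := fun m : s => m.1))).length_eq
    rw [h1, Module.length_pi_of_fintype]
    have h2 : ∀ m : s, Module.length R m.1 = 1 := fun m => by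
      haveI := simple m
      exact Module.length_eq_one_iff.mpr inferInstance
    rw [Finset.sum_congr rfl (fun m _ => h2 m)]
    simp [Set.ncard_def]
  · intro S _ _ _
    haveI : Nontrivial S := IsSimpleModule.nontrivial R S
    obtain ⟨x, hx⟩ : ∃ x : S, x ≠ 0 := exists_ne 0
    have hkill : ∀ r ∈ Ring.jacobson R, ∀ y : S, r • y = 0 := by
      intro r hr y
      have := (IsSemisimpleModule.jacobson_le_annihilator R S) hr
      exact Module.mem_annihilator.mp this y
    let g : (R ⧸ Ring.jacobson R) →ₗ[R] S :=
      (Ring.jacobson R).liftQ (LinearMap.toSpanSingleton R S x) (fun r hr => hkill r hr x)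
    have hg : g ≠ 0 := by
      intro h0
      have : g (Submodule.Quotient.mk 1) = x := by
        change (LinearMap.toSpanSingleton R S x) 1 = x
        simp
      rw [h0] at this
      exact hx this.symm
    by_contra hno
    push Not at hno
    apply hg
    have hall : ∀ m : s, g.comp (e.symm.toLinearMap.comp (DFinsupp.lsingle m)) = 0 := by
      intro m
      by_contra hne
      haveI := simple m
      have hb := LinearMap.bijective_of_ne_zero hne
      exact (hno m).false (LinearEquiv.ofBijective _ hb)
    have hcomp : g.comp e.symm.toLinearMap = 0 := by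
      apply DFinsupp.lhom_ext'
      intro m
      rw [LinearMap.comp_assoc]
      simpa using hall m
    refine LinearMap.ext fun y => ?_
    have := LinearMap.congr_fun hcomp (e y)
    simpa using this

end Killed

section Vec

variable {C : Type*} [CommRing C] [IsArtinianRing C] {R : Type u} [Ring R] [Algebra C R]
  [Module.Finite C R]

lemma L_eq_zero_of_subsingleton (X Y : Type*) [AddCommGroup X] [Module R X] [AddCommGroup Y]
    [Module R Y] [Subsingleton Y] : L C R X Y = 0 := by
  haveI : Subsingleton (X →ₗ[R] Y) := ⟨fun f g => LinearMap.ext fun x => Subsingleton.elim _ _⟩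
  simp [L]

/-- A killed module has the `Hom` lengths of a direct sum of copies of the modules `I i`. -/
theorem exists_vec {ι : Type*} [Fintype ι] (I : ι → Type u) [∀ i, AddCommGroup (I i)]
    [∀ i, Module R (I i)]
    (hrep : ∀ (S : Type u) [AddCommGroup S] [Module R S] [IsSimpleModule R S],
      ∃ i, Nonempty (I i ≃ₗ[R] S)) :
    ∀ (n : ℕ) (Y : Type u) [AddCommGroup Y] [Module R Y] [Module.Finite R Y],
      Killed (R := R) Y → (Module.length R Y).toNat = n →
      ∃ y : ι → ℕ, ∀ (X : Type v) [AddCommGroup X] [Module R X] [Module.Finite R X],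
        L C R X Y = ∑ i, y i * L C R X (I i) := by
  classical
  haveI hA : IsArtinianRing R := isArtinianRing_of_finite C R
  haveI hN : IsNoetherianRing R := isNoetherianRing_of_finite C R
  haveI hS : IsSemiprimaryRing R := inferInstance
  intro n
  induction n using Nat.strong_induction_on with
  | _ n ih =>
    intro Y _ _ _ hY hn
    by_cases hsub : Subsingleton Y
    · refine ⟨0, fun X _ _ _ => ?_⟩
      rw [L_eq_zero_of_subsingleton]
      simp
    · rw [not_subsingleton_iff_nontrivial] at hsub
      haveI := semisimple_of_killed hY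
      obtain ⟨m, hm⟩ := IsSemisimpleModule.exists_simple_submodule R Y
      obtain ⟨i, ⟨e⟩⟩ := hrep m
      have hlen : Module.length R Y = 1 + Module.length R (Y ⧸ m) :=
        Module.length_eq_add_of_exact m.subtype m.mkQ m.injective_subtype m.mkQ_surjective
          (LinearMap.exact_subtype_mkQ m) |>.trans (by rw [Module.length_eq_one_iff.mpr hm])
      have hfin : Module.length R (Y ⧸ m) ≠ ⊤ := Module.length_ne_top
      have hlt : (Module.length R (Y ⧸ m)).toNat < n := by
        rw [← hn, hlen, ENat.toNat_add (by simp) hfin]
        simp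
      obtain ⟨y, hy⟩ := ih _ hlt (Y ⧸ m) (killed_quotient hY m) rfl
      refine ⟨y + Pi.single i 1, fun X _ _ _ => ?_⟩
      have h1 : L C R X Y = L C R X m + L C R X (Y ⧸ m) :=
        L_post_add C m.subtype m.mkQ m.injective_subtype (LinearMap.exact_subtype_mkQ m)
          (fun h => IsSemisimpleModule.lifting_property m.mkQ m.mkQ_surjective h)
      have h2 : L C R X (I i) = L C R X m := by
        apply L_post_eq C e.toLinearMap
        constructor
        · intro u v huv
          ext x
          exact e.injective (LinearMap.congr_fun huv x)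
        · intro u
          refine ⟨e.symm.toLinearMap.comp u, ?_⟩
          ext x
          simp
      rw [h1, hy X, ← h2]
      simp only [Pi.add_apply, add_mul, Finset.sum_add_distrib, Pi.single_apply, ite_mul, one_mul,
        zero_mul, Finset.sum_ite_eq', Finset.mem_univ, if_true]
      ring

end Vec

end Vale.Agent.Lib.P195
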