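import Vale.Agent.Lib.P195.Chain

namespace Vale.Agent.Lib.P195

open CategoryTheory Abelian

universe u

attribute [local instance] homModule endAlgebra instTower

section LPost

variable {C : Type*} [CommRing C] [IsArtinianRing C] {R : Type*} [Ring R] [Algebra C R]
  [Module.Finite C R]
variable {X A B D : Type*} [AddCommGroup X] [Module R X] [AddCommGroup A] [Module R A]
  [AddCommGroup B] [Module R B] [AddCommGroup D] [Module R D]

variable (C) in
/-- If a map to the quotient does not lift, `L(X, -)` is strictly subadditive. -/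
lemma L_post_le [Module.Finite R X] [Module.Finite R A] [Module.Finite R D]
    (f : A →ₗ[R] B) (g : B →ₗ[R] D) (hf : Function.Injective f) (hfg : Function.Exact f g)
    (h : X →ₗ[R] D) (hh : ¬ ∃ h' : X →ₗ[R] B, g.comp h' = h) :
    L C R X B + 1 ≤ L C R X A + L C R X D := by
  have hD := isFiniteLength_hom (C := C) (R := R) X D
  have hA := isFiniteLength_hom (C := C) (R := R) X A
  let T := LinearMap.range (postC (X := X) C g)
  have hT : T ≠ ⊤ := by
    intro htop
    have : h ∈ T := htop ▸ Submodule.mem_top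
    obtain ⟨u, hu⟩ := this
    exact hh ⟨u, hu⟩
  have hD' := hD
  rw [isFiniteLength_iff_isNoetherian_isArtinian] at hD'
  obtain ⟨_, _⟩ := hD'
  have hlt := Submodule.length_lt (R := C) hT
  have hTfl : IsFiniteLength C T := by
    rw [isFiniteLength_iff_isNoetherian_isArtinian]
    exact ⟨inferInstance, inferInstance⟩
  have e : L C R X B = L C R X A + (Module.length C T).toNat := by
    refine toNat_length_add (postC C f) (postC C g).rangeRestrict ?_
      (postC C g).surjective_rangeRestrict ?_ hA hTfl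
    · intro u v huv
      ext x
      exact hf (LinearMap.congr_fun huv x)
    · intro u
      constructor
      · intro hu
        have hu' : g.comp u = 0 := congrArg Subtype.val hu
        have hmem : ∀ x, u x ∈ LinearMap.range f := fun x => by
          have : g (u x) = 0 := LinearMap.congr_fun hu' x
          exact (hfg (u x)).mp this
        refine ⟨(LinearEquiv.ofInjective f hf).symm.toLinearMap.comp (u.codRestrict _ hmem), ?_⟩
        ext x
        have := (LinearEquiv.ofInjective f hf).apply_symm_apply (u.codRestrict _ hmem x)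
        simp
      · rintro ⟨v, rfl⟩
        apply Subtype.ext
        ext x
        exact (hfg (f (v x))).mpr ⟨v x, rfl⟩
  have hDtop : Module.length C (X →ₗ[R] D) ≠ ⊤ := Module.length_ne_top
  have hTtop : Module.length C T ≠ ⊤ := Module.length_ne_top
  have hlt' : (Module.length C T).toNat + 1 ≤ L C R X D := by
    unfold L
    lift Module.length C T to ℕ using hTtop with t ht
    lift Module.length C (X →ₗ[R] D) to ℕ using hDtop with d hd
    simp only [ENat.toNat_natCast]
    exact_mod_cast hlt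
  omega

end LPost

section Main

variable {C : Type*} [CommRing C] [IsArtinianRing C] {R : Type u} [Ring R] [Algebra C R]
  [Module.Finite C R]

variable (r : Res R)

/-- `r` has vanishing `Ext¹` between later and earlier syzygies. -/
def Res.Van : Prop := ∀ a b, 1 ≤ b → b ≤ a → Subsingleton (Ext (r.N a) (r.N b) 1)

variable {r}

lemma Res.Van.lift (hx : r.Van) {a b : ℕ} (hb : 1 ≤ b) (hba : b < a) (h : r.N a →ₗ[R] r.N b)
    {W : Type u} [AddCommGroup W] [Module R W] (g : W →ₗ[R] r.N b) (hg : Function.Surjective g) :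
    ∃ h' : r.N a →ₗ[R] W, g.comp h' = h := by
  obtain ⟨a', rfl⟩ : ∃ a', a = a' + 1 := ⟨a - 1, by omega⟩
  have := r.proj a'
  obtain ⟨e, he⟩ := r.exists_ext_of_ext_one (hx a' b hb (by omega)) h
  obtain ⟨e', he'⟩ := Module.projective_lifting_property g e hg
  refine ⟨e'.comp (r.i a'), ?_⟩
  rw [← LinearMap.comp_assoc, he', he]

lemma Res.Van.rad (hx : r.Van) {a b : ℕ} (hb : 1 ≤ b) (hba : b < a) (h : r.N a →ₗ[R] r.N b)
    (x : r.N a) : h x ∈ Ring.jacobson R • (⊤ : Submodule R (r.N b)) := by
  obtain ⟨a', rfl⟩ : ∃ a', a = a' + 1 := ⟨a - 1, by omega⟩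
  obtain ⟨e, he⟩ := r.exists_ext_of_ext_one (hx a' b hb (by omega)) h
  rw [← he]
  exact Res.map_mem_of_ext (r := r) e x

variable (C) in
lemma Res.Van.L_P (hx : r.Van) {a b : ℕ} (hb : 1 ≤ b) (hba : b ≤ a) :
    L C R (r.P a) (r.N b) = L C R (r.N a) (r.N b) + L C R (r.N (a + 1)) (r.N b) := by
  have hN : IsNoetherianRing R := isNoetherianRing_of_finite C R
  have := r.finN a
  have := r.finN b
  have := r.finN (a + 1)
  exact L_pre_add C (r.i a) (r.π a) (r.surj _) (r.exact _)
    (fun f => r.exists_ext_of_ext_one (hx a b hb hba) f)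

lemma inAdd_of_lift {V W X : Type*} [AddCommGroup V] [Module R V] [AddCommGroup W] [Module R W]
    [AddCommGroup X] [Module R X] (h : InAdd R V W) (g : W →ₗ[R] X) (u : X →ₗ[R] W)
    (hgu : g.comp u = LinearMap.id) : InAdd R V X := by
  obtain ⟨m, s, p, hps⟩ := h
  refine ⟨m, s.comp u, g.comp p, ?_⟩
  ext x
  have h1 : p (s (u x)) = u x := LinearMap.congr_fun hps (u x)
  have h2 : g (u x) = x := LinearMap.congr_fun hgu x
  simp [h1, h2]

variable (C) in
include C in
/-- The main count: infinitely many syzygies with a two-term `add V` resolution are impossible. -/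
theorem core_two_term (hx : r.Van) (hnt : ∀ a, 1 ≤ a → Nontrivial (r.N a)) (V : Type u) [AddCommGroup V]
    [Module R V] [Module.Finite R V] (B : Set ℕ) (hB : B.Infinite)
    (hV : ∀ b ∈ B, HasTwoTerm R V (r.N b)) : False := by
  classical
  have hNo : IsNoetherianRing R := isNoetherianRing_of_finite C R
  have hAr : IsArtinianRing R := isArtinianRing_of_finite C R
  have : ∀ a, Module.Finite R (r.N a) := r.finN
  have : ∀ a, Module.Finite R (r.P a) := r.finP
  have : ∀ a, Module.Projective R (r.P a) := r.proj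
  have hAf : Module.Finite C (Module.End R V) := finite_end V
  have : IsNoetherianRing (Module.End R V) := isNoetherianRing_of_finite C (Module.End R V)
  have : IsArtinianRing (Module.End R V) := isArtinianRing_of_finite C (Module.End R V)
  obtain ⟨s, hF, simple, hcard, hrep⟩ := exists_simple_reps (R := Module.End R V)
  obtain ⟨t, hF', simple', hcard', hrep'⟩ := exists_simple_reps (R := R)
  let I : s → Type u := fun m => ↥(m.1 : Submodule (Module.End R V)
    (Module.End R V ⧸ Ring.jacobson (Module.End R V)))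
  let S : t → Type u := fun m => ↥(m.1 : Submodule R (R ⧸ Ring.jacobson R))
  have hu : ∀ a, ∃ u : s → ℕ, ∀ (P : Type u) [AddCommGroup P] [Module (Module.End R V) P]
      [Module.Finite (Module.End R V) P] [Module.Projective (Module.End R V) P],
      L C (Module.End R V) P (r.N a →ₗ[R] V) = ∑ i, u i * L C (Module.End R V) P (I i) := fun a => by
    have := finite_F (R := R) C V (r.N a)
    exact exists_comp_vec (C := C) I hrep _ (r.N a →ₗ[R] V) rfl
  choose u hu using hu
  let w : ℕ → t → ℕ := fun a j => L C R (r.P a) (S j)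
  let x : ℕ → ((s ⊕ s) ⊕ t → ℚ) := fun a =>
    Sum.elim (Sum.elim (fun i => (u a i : ℚ)) (fun i => (u (a + 1) i : ℚ))) (fun j => (w a j : ℚ))
  have hl : ∀ b ∈ B, 1 ≤ b → ∃ l : ((s ⊕ s) ⊕ t → ℚ) →ₗ[ℚ] ℚ, (∀ a, b < a → l (x a) = 0) ∧
      (¬ InAdd R V (r.N b) → l (x b) ≠ 0) := by
    intro b hbB hb
    obtain ⟨V₀, V₁, f, g, h0, h1, hf, hg, hfg⟩ := hV b hbB
    have : Module.Finite R V₀ := finite_of_inAdd h0
    have : Module.Finite R V₁ := finite_of_inAdd h1
    have := finite_hom h0
    have := finite_hom h1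
    have := projective_hom h0
    have := projective_hom h1
    obtain ⟨c, hc⟩ := exists_comp_vec (C := C) S hrep' _ (r.N b) rfl
    let α : s → ℕ := fun i => L C (Module.End R V) (V₀ →ₗ[R] V) (I i)
    let β : s → ℕ := fun i => L C (Module.End R V) (V₁ →ₗ[R] V) (I i)
    let l : ((s ⊕ s) ⊕ t → ℚ) →ₗ[ℚ] ℚ :=
      ∑ i, ((α i : ℚ) - β i) • ((LinearMap.proj (Sum.inl (Sum.inl i)) :
          ((s ⊕ s) ⊕ t → ℚ) →ₗ[ℚ] ℚ) + (LinearMap.proj (Sum.inl (Sum.inr i)) :
          ((s ⊕ s) ⊕ t → ℚ) →ₗ[ℚ] ℚ)) -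
        ∑ j, (c j : ℚ) • (LinearMap.proj (Sum.inr j) : ((s ⊕ s) ⊕ t → ℚ) →ₗ[ℚ] ℚ)
    have hval : ∀ a, l (x a) = ((L C R (r.N a) V₀ : ℚ) - L C R (r.N a) V₁) +
        ((L C R (r.N (a + 1)) V₀ : ℚ) - L C R (r.N (a + 1)) V₁) - L C R (r.P a) (r.N b) := by
      intro a
      rw [L_yoneda C h0, L_yoneda C h1, L_yoneda C h0, L_yoneda C h1, hu, hu, hu, hu, hc]
      simp only [l, x, LinearMap.sub_apply, LinearMap.sum_apply, LinearMap.smul_apply,
        LinearMap.add_apply, LinearMap.proj_apply, Sum.elim_inl, Sum.elim_inr, smul_eq_mul,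
        Nat.cast_sum, Nat.cast_mul, w, α, β]
      rw [← Finset.sum_sub_distrib, ← Finset.sum_sub_distrib, ← Finset.sum_add_distrib]
      congr 1
      refine Finset.sum_congr rfl fun i _ => ?_
      ring
    refine ⟨l, ?_, ?_⟩
    · intro a hba
      rw [hval]
      have e1 := L_post_add C f g hf hfg (X := r.N a) (fun h => hx.lift hb hba h g hg)
      have e2 := L_post_add C f g hf hfg (X := r.N (a + 1))
        (fun h => hx.lift hb (by omega) h g hg)
      have e3 := hx.L_P C hb hba.le
      rw [e1, e2, e3]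
      push_cast
      ring
    · intro hnot
      rw [hval]
      have hnl : ¬ ∃ h' : r.N b →ₗ[R] V₀, g.comp h' = LinearMap.id := fun ⟨h', hh'⟩ =>
        hnot (inAdd_of_lift h0 g h' hh')
      have e1 := L_post_le C f g hf hfg LinearMap.id hnl
      have e2 := L_post_add C f g hf hfg (X := r.N (b + 1))
        (fun h => hx.lift hb (by omega) h g hg)
      have e3 := hx.L_P C hb (le_refl b)
      have e1' : (L C R (r.N b) V₀ : ℚ) + 1 ≤ L C R (r.N b) V₁ + L C R (r.N b) (r.N b) := by
        exact_mod_cast e1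
      rw [e2, e3]
      push_cast
      intro h
      linarith
  choose! l hl0 hl1 using hl
  let Bad : Set ℕ := {b | b ∈ B ∧ 1 ≤ b ∧ ¬ InAdd R V (r.N b)}
  have hBad : Bad.Finite := by
    have := hF
    have := hF'
    refine finite_of_tri Bad x l ?_ ?_
    · rintro a - b ⟨hbB, hb, -⟩ hba
      exact hl0 b hbB hb a hba
    · rintro b ⟨hbB, hb, hnot⟩
      exact hl1 b hbB hb hnot
  let G : Set ℕ := (B \ Bad) \ {0}
  have hG : G.Infinite := (hB.sdiff hBad).sdiff (Set.finite_singleton 0)
  have hGadd : ∀ b ∈ G, InAdd R V (r.N b) := by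
    rintro b ⟨⟨hbB, hnb⟩, hb0⟩
    by_contra hnot
    exact hnb ⟨hbB, Nat.pos_of_ne_zero hb0, hnot⟩
  obtain ⟨a, haG, ha⟩ := exists_eq_rad_of_retracts C r.N V G hG hGadd (by
    rintro a - b ⟨⟨-, -⟩, hb0⟩ hba f y
    exact hx.rad (Nat.pos_of_ne_zero hb0) hba f y)
  have := hnt a (Nat.pos_of_ne_zero haG.2)
  exact smul_top_ne_top (R := R) (r.N a) (top_le_iff.mp fun y _ => ha y)

variable (r) in
lemma isMinSyz_res (c : ℕ) : ∀ k, IsMinSyz R k (r.N (c + k))
  | 0 => r.finN _
  | k + 1 => ⟨r.N (c + k), r.P (c + k), r.i (c + k), r.π (c + k), isMinSyz_res c k,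
      r.proj _, r.finP _, r.inj _, r.surj _, r.exact _, r.rad _⟩

variable (r) in
lemma van_of_ext (hM : ∀ c : ℕ, 1 ≤ c → Subsingleton (Ext (r.N 0) (r.N 0) c))
    (hR : ∀ c : ℕ, 1 ≤ c → Subsingleton (Ext (r.N 0) (ModuleCat.of R R) c)) : r.Van :=
  fun a _ hb hba => r.ext_one a (fun c h _ => hM c h) (fun c h _ => hR c h) hb hba le_rfl

variable (r) in
lemma nontrivial_of_not_proj (hR : ∀ c : ℕ, 1 ≤ c → Subsingleton (Ext (r.N 0) (ModuleCat.of R R) c))
    (hnp : ¬ Module.Projective R (r.N 0)) (a : ℕ) (ha : 1 ≤ a) : Nontrivial (r.N a) := by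
  obtain ⟨b, rfl⟩ : ∃ b, a = b + 1 := ⟨a - 1, by omega⟩
  by_contra hn
  rw [not_nontrivial_iff_subsingleton] at hn
  exact hnp (r.proj_of_subsingleton b (fun c h _ => hR c h) b le_rfl hn)

variable (C) in
include C in
/-- If infinitely many syzygies in a minimal resolution of an (AR)-module have a two-term
`add V` resolution for one fixed `V`, then the module is projective. -/
theorem ar_of_two_term (r : Res R) (hM : ∀ c : ℕ, 1 ≤ c → Subsingleton (Ext (r.N 0) (r.N 0) c))
    (hR : ∀ c : ℕ, 1 ≤ c → Subsingleton (Ext (r.N 0) (ModuleCat.of R R) c))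
    (V : Type u) [AddCommGroup V] [Module R V] [Module.Finite R V] (B : Set ℕ) (hB : B.Infinite)
    (hV : ∀ b ∈ B, HasTwoTerm R V (r.N b)) : Module.Projective R (r.N 0) := by
  by_contra hnp
  exact core_two_term C (van_of_ext r hM hR) (nontrivial_of_not_proj r hR hnp) V B hB hV

/-- The Auslander-Reiten conjecture holds for every `n`-Igusa-Todorov Artin algebra. -/
theorem ar_of_igusaTodorov (C : Type*) [CommRing C] [IsArtinianRing C] [Algebra C R]
    [Module.Finite C R] (n : ℕ) (V : Type u) [AddCommGroup V] [Module R V] [Module.Finite R V]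
    (hV : IsIgusaTodorov R n V) (M : ModuleCat.{u} R) [Module.Finite R M]
    (hM : ∀ c : ℕ, 1 ≤ c → Subsingleton (Ext M M c))
    (hR : ∀ c : ℕ, 1 ≤ c → Subsingleton (Ext M (ModuleCat.of R R) c)) :
    Module.Projective R M := by
  obtain ⟨r, rfl⟩ := exists_res C M
  refine ar_of_two_term C r hM hR V {b | n ≤ b} (Set.infinite_of_not_bddAbove ?_) ?_
  · rintro ⟨k, hk⟩
    have := hk (show n + k + 1 ∈ {b | n ≤ b} by simp; omega)
    omega
  · intro b hb
    obtain ⟨c, rfl⟩ : ∃ c, b = c + n := ⟨b - n, by have : n ≤ b := hb; omega⟩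
    exact hV _ (isMinSyz_res r c n)

end Main

end Vale.Agent.Lib.P195
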